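import Mathlib

/-!
# P025 G-LEMA, part 1 (helper572): from the local model algebra to a global Kummer cover

`B = K2[y]/(y^q' - x)`, `f = (x g^q')^q1` in `K2`, `L/K` splitting field of `X^(q1 q') - f`.
An element `H` of `B` that is not an `l`-th power stays a non `l`-th power under some
`K2`-algebra homomorphism `B → K2 ⊗[K] L`.
-/

open TensorProduct Polynomial

namespace P025H572

section RedArt

variable {B : Type*} [CommRing B] [IsArtinianRing B] [IsReduced B]

theorem eq_of_forall_mk {a b : B}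
    (h : ∀ m : MaximalSpectrum B, Ideal.Quotient.mk m.asIdeal a = Ideal.Quotient.mk m.asIdeal b) :
    a = b := by
  apply (IsArtinianRing.equivPi B).injective
  ext m
  simpa [IsArtinianRing.equivPi_apply] using h m

theorem exists_of_maximal (c : ∀ m : MaximalSpectrum B, B ⧸ m.asIdeal) :
    ∃ b : B, ∀ m : MaximalSpectrum B, Ideal.Quotient.mk m.asIdeal b = c m := by
  obtain ⟨b, hb⟩ := (IsArtinianRing.equivPi B).surjective c
  refine ⟨b, fun m => ?_⟩
  have := congrFun hb m
  simpa [IsArtinianRing.equivPi_apply] using this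

/-- being an `n`-th power is checked at the residue fields. -/
theorem isPow_of_forall_maximal (n : ℕ) (H : B)
    (h : ∀ m : MaximalSpectrum B, ∃ z : B ⧸ m.asIdeal, z ^ n = Ideal.Quotient.mk m.asIdeal H) :
    ∃ z : B, z ^ n = H := by
  choose c hc using h
  obtain ⟨b, hb⟩ := exists_of_maximal c
  refine ⟨b, eq_of_forall_mk fun m => ?_⟩
  rw [map_pow, hb, hc]

end RedArt

section Adj

variable {K2 : Type*} [Field K2]

instance adj_finite (q : ℕ) [NeZero q] (x : K2) :
    Module.Finite K2 (AdjoinRoot (X ^ q - C x : K2[X])) :=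
  (monic_X_pow_sub_C x (NeZero.ne q)).finite_adjoinRoot

instance adj_artin (q : ℕ) [NeZero q] (x : K2) :
    IsArtinianRing (AdjoinRoot (X ^ q - C x : K2[X])) :=
  IsArtinianRing.of_finite K2 _

theorem adj_reduced [CharZero K2] (q : ℕ) (hq : q ≠ 0) (x : K2) (hx : x ≠ 0) :
    IsReduced (AdjoinRoot (X ^ q - C x : K2[X])) := by
  have h1 : (X ^ q - C x : K2[X]).Separable := by
    have : NeZero (q : K2) := ⟨by exact_mod_cast hq⟩
    exact separable_X_pow_sub_C x (by exact_mod_cast hq) hx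
  have h2 : IsRadical (X ^ q - C x : K2[X]) := h1.squarefree.isRadical
  exact (Ideal.isRadical_iff_quotient_reduced _).1 (isRadical_iff_span_singleton.1 h2)

end Adj

section Main

theorem tensor_reduced {K K2 L : Type*} [Field K]
  [Field K2] [Algebra K K2] [Field L] [Algebra K L] [CharZero K] [FiniteDimensional K L] :
    IsReduced (K2 ⊗[K] L) := by
  have : Algebra.IsSeparable K L := inferInstance
  have h1 : Algebra.FormallyUnramified K L := Algebra.FormallyUnramified.of_isSeparable K L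
  have h2 : Algebra.FormallyUnramified K2 (K2 ⊗[K] L) := inferInstance
  have h3 : Module.Finite K2 (K2 ⊗[K] L) := inferInstance
  exact Algebra.FormallyUnramified.isReduced_of_field K2 (K2 ⊗[K] L)

/-- roots of a root of unity equation in a field containing an algebraically closed field. -/
theorem exists_const_root {k M : Type*} [Field k] [IsAlgClosed k] [Field M] [Algebra k M]
    {n : ℕ} (hn : n ≠ 0) {u : M} (hu : u ^ n = 1) : ∃ c : k, algebraMap k M c = u ∧ c ^ n = 1 := by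
  have h1 : IsIntegral k u := ⟨X ^ n - 1, monic_X_pow_sub_C 1 hn, by simp [hu]⟩
  obtain ⟨c, hc⟩ : ∃ c : k, algebraMap k M c = u := by
    have h2 := IsAlgClosed.degree_eq_one_of_irreducible k (minpoly.irreducible h1)
    obtain ⟨c, hc⟩ := minpoly.mem_range_of_degree_eq_one k u h2
    exact ⟨c, hc⟩
  refine ⟨c, hc, ?_⟩
  apply (algebraMap k M).injective
  rw [map_pow, hc, hu, map_one]

theorem root_pow {R : Type*} [CommRing R] (q : ℕ) (x : R) :
    (AdjoinRoot.root (X ^ q - C x : R[X])) ^ q = AdjoinRoot.of (X ^ q - C x : R[X]) x := by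
  have := AdjoinRoot.eval₂_root (X ^ q - C x : R[X])
  simpa [sub_eq_zero] using this

variable (k : Type*) {K K2 L : Type*} [Field k] [IsAlgClosed k] [CharZero k] [Field K] [Algebra k K]
  [Field K2] [Algebra K K2] [Field L] [Algebra K L]

include k in
theorem pow_at_point (q1 q' l : ℕ) (hq1 : q1 ≠ 0) (hq' : q' ≠ 0) (f : K) (hf : f ≠ 0)
    [IsSplittingField K L (X ^ (q1 * q') - C f : K[X])] (x g : K2) (hx : x ≠ 0) (hg : g ≠ 0)
    (hfx : algebraMap K K2 f = (x * g ^ q') ^ q1)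
    (H : AdjoinRoot (X ^ q' - C x : K2[X])) 
    (hcon : ∀ φ : AdjoinRoot (X ^ q' - C x : K2[X]) →ₐ[K2] K2 ⊗[K] L, ∃ z, z ^ l = φ H)
    {M : Type*} [Field M] [Algebra K2 M] (π : AdjoinRoot (X ^ q' - C x : K2[X]) →ₐ[K2] M) :
    ∃ z, z ^ l = π H := by
  have hK0 : CharZero K := charZero_of_injective_algebraMap (algebraMap k K).injective
  have hK2 : CharZero K2 := charZero_of_injective_algebraMap (algebraMap K K2).injective
  have hfin : FiniteDimensional K L := IsSplittingField.finiteDimensional L (X ^ (q1 * q') - C f)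
  have hred : IsReduced (K2 ⊗[K] L) := tensor_reduced
  have hart : IsArtinianRing (K2 ⊗[K] L) := IsArtinianRing.of_finite K2 _
  have hq : q1 * q' ≠ 0 := mul_ne_zero hq1 hq'
  let algkK2 : Algebra k K2 := ((algebraMap K K2).comp (algebraMap k K)).toAlgebra
  have t0 : IsScalarTower k K K2 := IsScalarTower.of_algebraMap_eq' rfl
  let algKM : Algebra K M := ((algebraMap K2 M).comp (algebraMap K K2)).toAlgebra
  have t1 : IsScalarTower K K2 M := IsScalarTower.of_algebraMap_eq' rfl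
  let algkM : Algebra k M := ((algebraMap K M).comp (algebraMap k K)).toAlgebra
  have t2 : IsScalarTower k K M := IsScalarTower.of_algebraMap_eq' rfl
  have t3 : IsScalarTower k K2 M := by
    apply IsScalarTower.of_algebraMap_eq
    intro c
    rw [IsScalarTower.algebraMap_apply k K M, IsScalarTower.algebraMap_apply K K2 M,
      IsScalarTower.algebraMap_apply k K K2]
  -- a root of `f` in `L`
  obtain ⟨y0, hy0⟩ : ∃ y0 : L, y0 ^ (q1 * q') = algebraMap K L f := by
    have hs := IsSplittingField.splits L (X ^ (q1 * q') - C f : K[X])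
    obtain ⟨y, hy⟩ := hs.exists_eval_eq_zero (by
      rw [degree_map, degree_X_pow_sub_C (Nat.pos_of_ne_zero hq)]
      exact_mod_cast hq)
    refine ⟨y, ?_⟩
    simpa [sub_eq_zero] using hy
  have hy00 : y0 ≠ 0 := by
    rintro rfl
    rw [zero_pow hq] at hy0
    exact hf ((map_eq_zero _).1 hy0.symm)
  -- the root `Y` of `X^q' - x` in `M`
  set Y : M := π (AdjoinRoot.root _) with hY
  have hYq : Y ^ q' = algebraMap K2 M x := by
    rw [hY, ← map_pow, root_pow]
    exact π.commutes x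
  have hx' : algebraMap K2 M x ≠ 0 := by simpa using hx
  have hg' : algebraMap K2 M g ≠ 0 := by simpa using hg
  have hYg : (Y * algebraMap K2 M g) ^ (q1 * q') = algebraMap K M f := by
    rw [IsScalarTower.algebraMap_apply K K2 M, hfx, mul_comm q1 q', pow_mul, mul_pow, hYq,
      map_pow, map_mul, map_pow]
  -- `σ : L → M`
  obtain ⟨ζ, hζ⟩ : ∃ ζ : k, IsPrimitiveRoot ζ (q1 * q') := by
    have : NeZero ((q1 * q' : ℕ) : k) := ⟨by exact_mod_cast hq⟩
    exact HasEnoughRootsOfUnity.exists_primitiveRoot k (q1 * q')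
  have hζM : IsPrimitiveRoot (algebraMap k M ζ) (q1 * q') :=
    hζ.map_of_injective (algebraMap k M).injective
  have hsplM : ((X ^ (q1 * q') - C f : K[X]).map (algebraMap K M)).Splits := by
    have := X_pow_sub_C_splits_of_isPrimitiveRoot hζM hYg
    simpa using this
  let σ : L →ₐ[K] M := IsSplittingField.lift L (X ^ (q1 * q') - C f : K[X]) hsplM
  have hσ : (σ y0) ^ (q1 * q') = algebraMap K M f := by
    rw [← map_pow, hy0, AlgHom.commutes]
  have hσ0 : σ y0 ≠ 0 := by simpa using hy00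
  -- the hom `ψ : K2 ⊗ L → M`
  let ψ : K2 ⊗[K] L →ₐ[K2] M :=
    Algebra.TensorProduct.lift (Algebra.ofId K2 M) σ (fun _ _ => Commute.all _ _)
  have hψl : ∀ z : L, ψ (1 ⊗ₜ z) = σ z := by intro z; simp [ψ]
  have hψk : ∀ z : K2, ψ (z ⊗ₜ 1) = algebraMap K2 M z := by intro z; simp [ψ, Algebra.ofId_apply]
  -- the constant `c0`
  obtain ⟨c0, hc0, hc0'⟩ : ∃ c : k, algebraMap k M c = Y * algebraMap K2 M g / σ y0 ∧
      c ^ (q1 * q') = 1 := by
    apply exists_const_root hq
    rw [div_pow, hYg, hσ, div_self]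
    rw [← hσ]
    exact pow_ne_zero _ hσ0
  -- constants in `K2 ⊗ L`
  set u : K2 ⊗[K] L := (g⁻¹ : K2) ⊗ₜ[K] y0 with hu
  have huu : (u ^ q') ^ q1 = ((x ^ q1 : K2) ⊗ₜ[K] (1 : L)) := by
    rw [← pow_mul, mul_comm q' q1, hu, Algebra.TensorProduct.tmul_pow, hy0,
      Algebra.algebraMap_eq_smul_one, ← TensorProduct.smul_tmul, Algebra.smul_def, hfx]
    congr 1
    rw [inv_pow, mul_pow, ← pow_mul, mul_comm q' q1]
    field_simp
  have hψu : ψ ((algebraMap k K2 c0 ⊗ₜ[K] (1 : L)) * u) = Y := by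
    rw [hu, Algebra.TensorProduct.tmul_mul_tmul, one_mul]
    have : (algebraMap k K2 c0 * g⁻¹) ⊗ₜ[K] y0 =
        ((algebraMap k K2 c0 * g⁻¹) ⊗ₜ[K] (1 : L)) * ((1 : K2) ⊗ₜ[K] y0) := by
      rw [Algebra.TensorProduct.tmul_mul_tmul, one_mul, mul_one]
    rw [this, map_mul, hψk, hψl, map_mul, ← IsScalarTower.algebraMap_apply, hc0, map_inv₀]
    field_simp
  -- choice of constants at all points
  have hchoice : ∀ m : MaximalSpectrum (K2 ⊗[K] L), ∃ c : k,
      Ideal.Quotient.mk m.asIdeal ((algebraMap k K2 c ⊗ₜ[K] (1 : L)) * u) ^ q' =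
        Ideal.Quotient.mk m.asIdeal (x ⊗ₜ 1) ∧
      (m.asIdeal = RingHom.ker ψ → c = c0) := by
    intro m
    by_cases hm : m.asIdeal = RingHom.ker ψ
    · refine ⟨c0, ?_, fun _ => rfl⟩
      rw [← map_pow, ← sub_eq_zero, ← map_sub, Ideal.Quotient.eq_zero_iff_mem, hm,
        RingHom.mem_ker, map_sub, map_pow, hψu, hYq, hψk, sub_self]
    · let fm : Field ((K2 ⊗[K] L) ⧸ m.asIdeal) := Ideal.Quotient.field _
      let ι : k →+* ((K2 ⊗[K] L) ⧸ m.asIdeal) := (Ideal.Quotient.mk m.asIdeal).comp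
        ((algebraMap K2 (K2 ⊗[K] L)).comp (algebraMap k K2))
      let alg : Algebra k ((K2 ⊗[K] L) ⧸ m.asIdeal) := ι.toAlgebra
      have hι : ∀ c : k, algebraMap k ((K2 ⊗[K] L) ⧸ m.asIdeal) c =
        Ideal.Quotient.mk m.asIdeal (algebraMap k K2 c ⊗ₜ[K] (1 : L)) := fun c => rfl
      set ub := Ideal.Quotient.mk m.asIdeal u with hub
      have hub1 : (ub ^ q') ^ q1 = (Ideal.Quotient.mk m.asIdeal (x ⊗ₜ[K] (1 : L))) ^ q1 := by
        rw [hub, ← map_pow, ← map_pow, huu, ← map_pow, Algebra.TensorProduct.tmul_pow, one_pow]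
      have hx0 : Ideal.Quotient.mk m.asIdeal (x ⊗ₜ[K] (1 : L)) ≠ 0 := by
        have h1 : (x ⊗ₜ[K] (1 : L)) * (x⁻¹ ⊗ₜ[K] (1 : L)) = 1 := by
          rw [Algebra.TensorProduct.tmul_mul_tmul, mul_inv_cancel₀ hx, one_mul]
          rfl
        intro h
        have h2 := congrArg (Ideal.Quotient.mk m.asIdeal) h1
        rw [map_mul, h, zero_mul, map_one] at h2
        exact zero_ne_one h2
      have hub0 : ub ^ q' ≠ 0 := by
        intro h
        rw [h, zero_pow hq1] at hub1
        exact pow_ne_zero _ hx0 hub1.symm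
      obtain ⟨ξ, hξ, -⟩ := exists_const_root (k := k) hq1
        (u := Ideal.Quotient.mk m.asIdeal (x ⊗ₜ[K] (1 : L)) / ub ^ q') (by
          rw [div_pow, hub1, div_self (pow_ne_zero _ hx0)])
      obtain ⟨c, hc⟩ := IsAlgClosed.exists_pow_nat_eq ξ (Nat.pos_of_ne_zero hq')
      refine ⟨c, ?_, fun h => absurd h hm⟩
      rw [map_mul, ← hι, mul_pow, ← map_pow, hc, hξ, div_mul_cancel₀ _ hub0]
  choose cc hcc hcc0 using hchoice
  obtain ⟨η, hη⟩ := exists_of_maximal (B := K2 ⊗[K] L)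
    (fun m => Ideal.Quotient.mk m.asIdeal (algebraMap k K2 (cc m) ⊗ₜ[K] (1 : L)))
  have hyq : (η * u) ^ q' = x ⊗ₜ[K] (1 : L) := by
    apply eq_of_forall_mk
    intro m
    rw [← hcc m, map_pow, map_mul, hη, map_mul]
  let φ : AdjoinRoot (X ^ q' - C x : K2[X]) →ₐ[K2] K2 ⊗[K] L :=
    AdjoinRoot.liftAlgHom _ (Algebra.ofId K2 _) (η * u) (by
      rw [eval₂_sub, eval₂_X_pow, eval₂_C, hyq]
      simp)
  obtain ⟨z, hz⟩ := hcon φ
  refine ⟨ψ z, ?_⟩
  rw [← map_pow, hz]
  have hψη : ψ η = ψ (algebraMap k K2 c0 ⊗ₜ[K] (1 : L)) := by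
    have hmax : (RingHom.ker ψ).IsMaximal := by
      have h1 : (RingHom.ker ψ).IsPrime := RingHom.ker_isPrime ψ
      exact IsArtinianRing.isMaximal_of_isPrime _
    have h2 := hη ⟨_, hmax⟩
    rw [hcc0 ⟨_, hmax⟩ rfl, ← sub_eq_zero, ← map_sub, Ideal.Quotient.eq_zero_iff_mem] at h2
    rw [← sub_eq_zero, ← map_sub]
    exact h2
  have hcomp : ψ.comp φ = π := by
    apply AdjoinRoot.algHom_ext
    rw [AlgHom.comp_apply]
    have h3 : φ (AdjoinRoot.root _) = η * u := AdjoinRoot.liftAlgHom_root _ _ _ _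
    rw [h3, map_mul, hψη, ← map_mul, hψu]
  rw [← hcomp]
  rfl

include k in
theorem exists_hom_not_pow (q1 q' l : ℕ) (hq1 : q1 ≠ 0) (hq' : q' ≠ 0) (f : K) (hf : f ≠ 0)
    [IsSplittingField K L (X ^ (q1 * q') - C f : K[X])] (x g : K2) (hx : x ≠ 0) (hg : g ≠ 0)
    (hfx : algebraMap K K2 f = (x * g ^ q') ^ q1)
    (H : AdjoinRoot (X ^ q' - C x : K2[X])) (hH : ¬ ∃ z, z ^ l = H) :
    ∃ φ : AdjoinRoot (X ^ q' - C x : K2[X]) →ₐ[K2] K2 ⊗[K] L, ¬ ∃ z, z ^ l = φ H := by
  have hK0 : CharZero K := charZero_of_injective_algebraMap (algebraMap k K).injective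
  have hK2 : CharZero K2 := charZero_of_injective_algebraMap (algebraMap K K2).injective
  have : NeZero q' := ⟨hq'⟩
  have hBred := adj_reduced q' hq' x hx
  by_contra hcon
  push Not at hcon
  apply hH
  apply isPow_of_forall_maximal
  intro N
  let fM : Field (AdjoinRoot (X ^ q' - C x : K2[X]) ⧸ N.asIdeal) := Ideal.Quotient.field _
  exact pow_at_point k q1 q' l hq1 hq' f hf x g hx hg hfx H hcon
    (Ideal.Quotient.mkₐ K2 N.asIdeal)

end Main


end P025H572
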