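import Vale.Agent.P025.R2.H544.Patch
import Vale.Agent.P025.R2.H572.Alg

/-!
# P025 G-LEMA, part 2 (helper572): Kummer gluing of the local model
-/

open TensorProduct Polynomial

namespace P025H572

section Glue

open P025H544

variable (k : Type*) {F F1 F2 F0 K L K2 K0 : Type*} [Field k] [IsAlgClosed k] [CharZero k]
  [Field F] [Field F1] [Field F2] [Field F0]
  [Algebra F F1] [Algebra F F2] [Algebra F F0] [Algebra F1 F0] [Algebra F2 F0]
  [IsScalarTower F F1 F0] [IsScalarTower F F2 F0]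
  [Field K] [Algebra F K] [Field L] [Algebra F L] [Algebra K L] [IsScalarTower F K L]
  [Algebra k K] [Field K2] [Algebra K K2] [Field K0] [Algebra K2 K0]

/-- the base change `K2[y]/(y^q-x) → K0[y]/(y^q-x)`. -/
noncomputable def mapB (q' : ℕ) (x : K2) (K0 : Type*) [Field K0] [Algebra K2 K0] :
    AdjoinRoot (X ^ q' - C x : K2[X]) →+*
      AdjoinRoot (X ^ q' - C (algebraMap K2 K0 x) : K0[X]) :=
  AdjoinRoot.lift ((AdjoinRoot.of _).comp (algebraMap K2 K0)) (AdjoinRoot.root _) (by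
    rw [eval₂_sub, eval₂_X_pow, eval₂_C, root_pow, RingHom.comp_apply, sub_self])

include k in
theorem lemA_glue (hP : Patch F F1 F2 F0) [Algebra.IsAlgebraic F L]
    (e2 : F2 ⊗[F] K ≃+* K2) (he2 : ∀ z : K, e2 (1 ⊗ₜ z) = algebraMap K K2 z)
    (κ0 : K0 →+* F0 ⊗[F] K) (hκ0 : ∀ w : F2 ⊗[F] K, κ0 (algebraMap K2 K0 (e2 w)) = bc F F2 F0 K w)
    (q1 q' l : ℕ) (hq1 : q1 ≠ 0) (hq' : q' ≠ 0) (hl : l ≠ 0) (f : K) (hf : f ≠ 0)
    [IsSplittingField K L (X ^ (q1 * q') - C f : K[X])] (x g : K2) (hx : x ≠ 0) (hg : g ≠ 0)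
    (hfx : algebraMap K K2 f = (x * g ^ q') ^ q1)
    (H : AdjoinRoot (X ^ q' - C x : K2[X])) (hHu : IsUnit H) (hH : ¬ ∃ z, z ^ l = H)
    (hH0 : ∃ z, z ^ l = mapB q' x K0 H) :
    ∃ (β : L) (φ : AdjoinRoot (X ^ q' - C x : K2[X]) →+* F2 ⊗[F] L), β ≠ 0 ∧
      (∃ a : F1 ⊗[F] L, a ^ l = 1 ⊗ₜ β) ∧ (¬ ∃ b : F2 ⊗[F] L, b ^ l = 1 ⊗ₜ β) ∧
      (∃ t : (F2 ⊗[F] L)ˣ, (1 : F2) ⊗ₜ[F] β = φ H * (t : F2 ⊗[F] L) ^ l) ∧
      (∀ w : F2 ⊗[F] K, φ (AdjoinRoot.of _ (e2 w)) = tL F F2 (IsScalarTower.toAlgHom F K L) w) := by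
  obtain ⟨φ', hφ'⟩ := exists_hom_not_pow k (L := L) q1 q' l hq1 hq' f hf x g hx hg hfx H hH
  -- `ρ : K2 ⊗[K] L → F2 ⊗[F] L`
  let i : L →+* F2 ⊗[F] L := (Algebra.TensorProduct.includeRight : L →ₐ[F] F2 ⊗[F] L).toRingHom
  have hi : ∀ z, i z = 1 ⊗ₜ z := fun z => rfl
  let algKT : Algebra K (F2 ⊗[F] L) := (i.comp (algebraMap K L)).toAlgebra
  have halgKT : ∀ z : K, algebraMap K (F2 ⊗[F] L) z = 1 ⊗ₜ algebraMap K L z := fun z => rfl
  let r1 : K2 →ₐ[K] F2 ⊗[F] L :=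
    { (tL F F2 (IsScalarTower.toAlgHom F K L)).toRingHom.comp e2.symm.toRingHom with
      commutes' := by
        intro z
        have : e2.symm (algebraMap K K2 z) = 1 ⊗ₜ z := by rw [← he2, RingEquiv.symm_apply_apply]
        change tL F F2 (IsScalarTower.toAlgHom F K L) (e2.symm (algebraMap K K2 z)) = _
        rw [this, tL_tmul]
        rfl }
  let r2 : L →ₐ[K] F2 ⊗[F] L := { i with commutes' := fun z => rfl }
  let ρ : K2 ⊗[K] L →ₐ[K] F2 ⊗[F] L := Algebra.TensorProduct.lift r1 r2 (fun _ _ => Commute.all _ _)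
  have hρ : ∀ (w : F2 ⊗[F] K) (z : L), ρ (e2 w ⊗ₜ z) =
      tL F F2 (IsScalarTower.toAlgHom F K L) w * 1 ⊗ₜ z := by
    intro w z
    rw [Algebra.TensorProduct.lift_tmul]
    congr 1
    change tL F F2 (IsScalarTower.toAlgHom F K L) (e2.symm (e2 w)) = _
    rw [RingEquiv.symm_apply_apply]
  -- the inverse
  let j : L →+* K2 ⊗[K] L := (Algebra.TensorProduct.includeRight : L →ₐ[K] K2 ⊗[K] L).toRingHom
  let algFT : Algebra F (K2 ⊗[K] L) := (j.comp (algebraMap F L)).toAlgebra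
  have hjK : ∀ z : K, (algebraMap K K2 z) ⊗ₜ[K] (1 : L) = j (algebraMap K L z) := by
    intro z
    change _ = (1 : K2) ⊗ₜ[K] algebraMap K L z
    rw [Algebra.algebraMap_eq_smul_one, Algebra.algebraMap_eq_smul_one, TensorProduct.smul_tmul]
  let s1 : F2 →ₐ[F] K2 ⊗[K] L :=
    { ((Algebra.TensorProduct.includeLeftRingHom : K2 →+* K2 ⊗[K] L).comp e2.toRingHom).comp
        (Algebra.TensorProduct.includeLeftRingHom : F2 →+* F2 ⊗[F] K) with
      commutes' := by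
        intro z
        change (e2 ((algebraMap F F2 z) ⊗ₜ[F] (1 : K))) ⊗ₜ[K] (1 : L) = j (algebraMap F L z)
        rw [Algebra.algebraMap_eq_smul_one, TensorProduct.smul_tmul,
          ← Algebra.algebraMap_eq_smul_one, he2, hjK, ← IsScalarTower.algebraMap_apply] }
  let s2 : L →ₐ[F] K2 ⊗[K] L := { j with commutes' := fun z => rfl }
  let ρ' : F2 ⊗[F] L →ₐ[F] K2 ⊗[K] L :=
    Algebra.TensorProduct.lift s1 s2 (fun _ _ => Commute.all _ _)
  have hρ' : ∀ (a : F2) (z : L), ρ' (a ⊗ₜ z) = (e2 (a ⊗ₜ 1)) ⊗ₜ z := by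
    intro a z
    rw [Algebra.TensorProduct.lift_tmul]
    change (e2 (a ⊗ₜ[F] (1 : K))) ⊗ₜ[K] (1 : L) * ((1 : K2) ⊗ₜ[K] z) = _
    rw [Algebra.TensorProduct.tmul_mul_tmul, mul_one, one_mul]
  have hinv : ∀ u : K2 ⊗[K] L, ρ' (ρ u) = u := by
    intro u
    induction u with
    | zero => simp
    | add u v hu hv => rw [map_add, map_add, hu, hv]
    | tmul a z =>
      obtain ⟨w, rfl⟩ := e2.surjective a
      rw [hρ, map_mul]
      have h1 : ρ' (tL F F2 (IsScalarTower.toAlgHom F K L) w) = (e2 w) ⊗ₜ 1 := by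
        induction w with
        | zero => simp
        | add u v hu hv => rw [map_add, map_add, hu, hv, map_add, TensorProduct.add_tmul]
        | tmul a c =>
          rw [tL_tmul, hρ', IsScalarTower.coe_toAlgHom',
            Algebra.algebraMap_eq_smul_one, ← TensorProduct.smul_tmul, Algebra.smul_def, ← he2,
            ← map_mul, Algebra.TensorProduct.tmul_mul_tmul, one_mul, mul_one]
      have h2 : e2 ((1 : F2) ⊗ₜ[F] (1 : K)) = 1 := map_one e2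
      rw [h1, hρ', Algebra.TensorProduct.tmul_mul_tmul, h2, mul_one, one_mul]
  -- the hom `φ`
  let φ : AdjoinRoot (X ^ q' - C x : K2[X]) →+* F2 ⊗[F] L := ρ.toRingHom.comp φ'.toRingHom
  have hφof : ∀ w : F2 ⊗[F] K,
      φ (AdjoinRoot.of _ (e2 w)) = tL F F2 (IsScalarTower.toAlgHom F K L) w := by
    intro w
    change ρ (φ' (algebraMap K2 _ (e2 w))) = _
    rw [AlgHom.commutes, Algebra.TensorProduct.algebraMap_apply, Algebra.algebraMap_self_apply, hρ]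
    change _ * ((1 : F2) ⊗ₜ[F] (1 : L)) = _
    rw [← Algebra.TensorProduct.one_def, mul_one]
  have hφH : ¬ ∃ z, z ^ l = φ H := by
    rintro ⟨z, hz⟩
    apply hφ'
    refine ⟨ρ' z, ?_⟩
    rw [← map_pow, hz]
    exact hinv _
  -- the hom `φ0`
  let i0 : K0 →+* F0 ⊗[F] L := (tL F F0 (IsScalarTower.toAlgHom F K L)).toRingHom.comp κ0
  have hi0 : ∀ r : K2, i0 (algebraMap K2 K0 r) = bc F F2 F0 L (φ (AdjoinRoot.of _ r)) := by
    intro r
    obtain ⟨w, rfl⟩ := e2.surjective r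
    rw [hφof]
    change tL F F0 (IsScalarTower.toAlgHom F K L) (κ0 (algebraMap K2 K0 (e2 w))) = _
    rw [hκ0]
    induction w with
    | zero => simp
    | add u v hu hv => simp only [map_add, hu, hv]
    | tmul a c => simp
  let φ0 : AdjoinRoot (X ^ q' - C (algebraMap K2 K0 x) : K0[X]) →+* F0 ⊗[F] L :=
    AdjoinRoot.lift i0 (bc F F2 F0 L (φ (AdjoinRoot.root _))) (by
      rw [eval₂_sub, eval₂_X_pow, eval₂_C, hi0, ← map_pow, ← map_pow, root_pow, sub_self])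
  have hcomp : ∀ b, φ0 (mapB q' x K0 b) = bc F F2 F0 L (φ b) := by
    intro b
    have : (φ0.comp (mapB q' x K0)) = (bc F F2 F0 L).toRingHom.comp φ := by
      apply AdjoinRoot.ringHom_ext
      · ext r
        change φ0 (mapB q' x K0 (AdjoinRoot.of _ r)) = bc F F2 F0 L (φ (AdjoinRoot.of _ r))
        rw [mapB, AdjoinRoot.lift_of, RingHom.comp_apply, AdjoinRoot.lift_of, hi0]
      · change φ0 (mapB q' x K0 (AdjoinRoot.root _)) = bc F F2 F0 L (φ (AdjoinRoot.root _))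
        rw [mapB, AdjoinRoot.lift_root, AdjoinRoot.lift_root]
    exact RingHom.congr_fun this b
  obtain ⟨z0, hz0⟩ := hH0
  obtain ⟨Hu, hHu'⟩ := hHu.map φ
  have hw : IsUnit (φ0 z0) := by
    apply (isUnit_pow_iff hl).1
    rw [← map_pow, hz0, hcomp, ← hHu']
    exact Hu.isUnit.map _
  obtain ⟨w, hw⟩ := hw
  have hwl : ((w⁻¹ : (F0 ⊗[F] L)ˣ) : F0 ⊗[F] L) ^ l * (bc F F2 F0 L Hu) = 1 := by
    rw [hHu', ← hcomp, ← hz0, map_pow, ← hw, ← mul_pow, Units.inv_mul, one_pow]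
  obtain ⟨β, hβ0, ⟨s, hs⟩, ⟨t, ht⟩⟩ := hP.kummer_glue l (1 : (F1 ⊗[F] L)ˣ) Hu w⁻¹ (by
    rw [Units.val_one, map_one, mul_comm, hwl])
  refine ⟨β, φ, hβ0, ⟨s, by rw [hs]; simp⟩, ?_, ⟨t, by rw [ht, hHu']⟩, hφof⟩
  rintro ⟨b, hb⟩
  apply hφH
  refine ⟨b * (t⁻¹ : (F2 ⊗[F] L)ˣ), ?_⟩
  rw [mul_pow, hb, ht, hHu', mul_assoc, ← mul_pow, Units.mul_inv, one_pow, mul_one]

end Glue

end P025H572
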