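import Vale.Agent.P025.R2.H373.Gauss
import Vale.Agent.P025.R2.H572.Glue

/-!
# P025 G-LEMA (helper572): local models, the form needed by `lemA_glue`
-/

open TensorProduct Polynomial P025H373

universe u

set_option linter.unusedSectionVars false

namespace P025H572

section General

theorem order_inv' {k : Type*} [Field k] (x : LaurentSeries k) : x⁻¹.order = - x.order := by
  by_cases h : x = 0
  · simp [h]
  · have h1 := HahnSeries.order_mul h (inv_ne_zero h)
    rw [mul_inv_cancel₀ h, HahnSeries.order_one] at h1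
    omega

/-- the valuation ring of Laurent series. -/
noncomputable def lauO (k : Type*) [Field k] : ValuationSubring (LaurentSeries k) where
  carrier := {f | 0 ≤ f.order}
  mul_mem' := by
    intro a b (ha : 0 ≤ a.order) (hb : 0 ≤ b.order)
    change 0 ≤ (a * b).order
    by_cases h1 : a = 0
    · simp [h1]
    by_cases h2 : b = 0
    · simp [h2]
    rw [HahnSeries.order_mul h1 h2]
    omega
  one_mem' := by
    change 0 ≤ (1 : LaurentSeries k).order
    simp
  add_mem' := by
    intro a b (ha : 0 ≤ a.order) (hb : 0 ≤ b.order)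
    change 0 ≤ (a + b).order
    by_cases h : a + b = 0
    · simp [h]
    · exact (le_min ha hb).trans (HahnSeries.min_order_le_order_add h)
  zero_mem' := by
    change 0 ≤ (0 : LaurentSeries k).order
    simp
  neg_mem' := by
    intro a (ha : 0 ≤ a.order)
    change 0 ≤ (-a).order
    rwa [HahnSeries.order_neg]
  mem_or_inv_mem' := by
    intro a
    change 0 ≤ a.order ∨ 0 ≤ (a⁻¹).order
    rw [order_inv']
    omega

/-- constants have order `0`, for any ring homomorphism (divisibility). -/
theorem order_const {k : Type*} [Field k] [IsAlgClosed k] {E : Type*} [Field E]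
    (j : k →+* LaurentSeries E) (c : k) : (j c).order = 0 := by
  by_contra h
  obtain ⟨d, hd⟩ := IsAlgClosed.exists_pow_nat_eq c (n := (j c).order.natAbs + 1) (by omega)
  have h1 : (j c).order = (((j c).order.natAbs + 1 : ℕ) : ℤ) * (j d).order := by
    conv_lhs => rw [← hd, map_pow, HahnSeries.order_pow, nsmul_eq_mul]
  have h2 : (((j c).order.natAbs + 1 : ℕ) : ℤ) ∣ (j c).order := ⟨_, h1⟩
  have h3 := Int.natAbs_dvd_natAbs.2 h2
  have h4 := Nat.le_of_dvd (by omega) h3
  rw [Int.natAbs_natCast] at h4
  omega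

theorem order_one_add {k : Type*} [Field k] {z : LaurentSeries k} (hz : z.order < 0) :
    (1 + z).order = z.order := by
  have hz0 : z ≠ 0 := by
    rintro rfl
    simp at hz
  have h0 : 1 + z ≠ 0 := by
    intro h
    have h1 : z = -1 := by linear_combination h
    rw [h1, HahnSeries.order_neg, HahnSeries.order_one] at hz
    exact lt_irrefl _ hz
  have h1 := HahnSeries.min_order_le_order_add h0
  have h2 : ((1 + z) + (-1) : LaurentSeries k) ≠ 0 := by
    rw [add_neg_cancel_comm]
    exact hz0
  have h3 := HahnSeries.min_order_le_order_add h2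
  rw [add_neg_cancel_comm, HahnSeries.order_neg] at h3
  rw [HahnSeries.order_one] at h1 h3
  omega

theorem mem_lauO {k : Type*} [Field k] {x : LaurentSeries k} : x ∈ lauO k ↔ 0 ≤ x.order := Iff.rfl

theorem order_eq_of_val {k : Type*} [Field k] {x y : LaurentSeries k} (hx : x ≠ 0) (hy : y ≠ 0)
    (h : (lauO k).valuation x = (lauO k).valuation y) : x.order = y.order := by
  have key : ∀ {a b : LaurentSeries k}, a ≠ 0 → b ≠ 0 →
      (lauO k).valuation a = (lauO k).valuation b → b.order ≤ a.order := by
    intro a b ha hb hab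
    have h1 : (lauO k).valuation (a * b⁻¹) ≤ 1 := by
      rw [map_mul, hab, ← map_mul, mul_inv_cancel₀ hb, map_one]
    rw [ValuationSubring.valuation_le_one_iff, mem_lauO, HahnSeries.order_mul ha (inv_ne_zero hb),
      order_inv'] at h1
    omega
  exact le_antisymm (key hy hx h.symm) (key hx hy h)

end General

section LAa

variable {C : Type u} [NontriviallyNormedField C] [IsUltrametricDist C] [CompleteSpace C]
  [IsAlgClosed C]

variable (C) in
/-- the coordinate `s = 1/t` of the disc, in `F2`. -/
noncomputable def s2 : F2 C := (algebraMap (RatFunc C) (F2 C) RatFunc.X)⁻¹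

theorem coe_const (c : C) : algebraMap (F2 C) (F0 C) (algebraMap C (F2 C) c) =
    algebraMap C (F0 C) c := rfl

variable (C) in
/-- the coordinate `s = 1/t` in `F0`. -/
theorem coe_s2 : algebraMap (F2 C) (F0 C) (s2 C) = (tt C)⁻¹ := by
  rw [s2, map_inv₀]
  rfl

variable (C) in
theorem s2_ne_zero : s2 C ≠ 0 := by
  rw [s2]
  apply inv_ne_zero
  simpa using RatFunc.X_ne_zero

/-- `x = 1 + b s^e` in `F2`. -/
noncomputable def xb (b : C) (e : ℕ) : F2 C := 1 + algebraMap C (F2 C) b * s2 C ^ e

theorem coe_xb (b : C) (e : ℕ) : algebraMap (F2 C) (F0 C) (xb b e) =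
    1 + algebraMap C (F0 C) b * (tt C)⁻¹ ^ e := by
  rw [xb, map_add, map_one, map_mul, map_pow, coe_s2, coe_const]

theorem xb_ne_zero (b : C) (hb : ‖b‖ < 1) (e : ℕ) : xb b e ≠ 0 := by
  intro h
  have h1 := coe_xb b e
  rw [h, map_zero] at h1
  have h2 : ‖algebraMap C (F0 C) b * (tt C)⁻¹ ^ e‖ < 1 := by
    rw [norm_mul, norm_pow, norm_inv, norm_tt, norm_algebraMap_C]
    simpa using hb
  have h3 : algebraMap C (F0 C) b * (tt C)⁻¹ ^ e = -1 := by linear_combination -h1
  rw [h3, norm_neg, norm_one] at h2
  exact lt_irrefl _ h2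

/-- a `C`-linear ring homomorphism `F2 → C((π))` maps `s` into `C[[π]]`. -/
theorem order_s2_nonneg [CharZero C] {E : Type*} [Field E] (lam : F2 C →+* LaurentSeries E) :
    0 ≤ (lam (s2 C)).order := by
  by_contra hneg
  push Not at hneg
  set k := (-(lam (s2 C)).order).toNat with hk
  have hk1 : (lam (s2 C)).order = -(k : ℤ) := by omega
  have hk0 : k ≠ 0 := by omega
  have hn : ((k + 1 : ℕ) : C) ≠ 0 := by exact_mod_cast Nat.succ_ne_zero k
  obtain ⟨c, hc0, hc⟩ := NormedField.exists_norm_lt C (r := ‖((k + 1 : ℕ) : C)‖ ^ 2) (by positivity)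
  have hmem : (1 + algebraMap C (F0 C) c * (tt C)⁻¹) ∈ (A2 C).toSubring := by
    apply Subring.add_mem _ (Subring.one_mem _)
    apply Subring.mul_mem
    · exact (A2 C).algebraMap_mem c
    · exact inv_tt_mem_A2
  obtain ⟨y, hy, hyk, -⟩ := exists_pow_eq (C := C) (A := F0 C) (A2 C).toSubring isClosed_A2
    (fun c => (A2 C).algebraMap_mem c) hn hmem (by
      rw [add_sub_cancel_left, norm_mul, norm_inv, norm_tt, norm_algebraMap_C, inv_one, mul_one]
      exact hc)
  have hyF : y ∈ F2 C := IntermediateField.subset_adjoin _ _ hy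
  have e1 : (⟨y, hyF⟩ : F2 C) ^ (k + 1) = 1 + algebraMap C (F2 C) c * s2 C := by
    apply (algebraMap (F2 C) (F0 C)).injective
    rw [map_pow, map_add, map_one, map_mul, coe_s2, coe_const]
    exact hyk
  have e2 := congrArg lam e1
  rw [map_pow, map_add, map_one, map_mul] at e2
  have hc' : lam (algebraMap C (F2 C) c) ≠ 0 := by
    simpa using norm_pos_iff.1 hc0
  have hs0 : lam (s2 C) ≠ 0 := by simpa using s2_ne_zero C
  have e3 : (lam (algebraMap C (F2 C) c) * lam (s2 C)).order = -(k : ℤ) := by
    have := order_const (lam.comp (algebraMap C (F2 C))) c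
    rw [RingHom.comp_apply] at this
    rw [HahnSeries.order_mul hc' hs0, this, hk1, zero_add]
  have e4 := congrArg HahnSeries.order e2
  rw [HahnSeries.order_pow, order_one_add (by rw [e3]; omega), e3, nsmul_eq_mul] at e4
  have e5 : ((k + 1 : ℕ) : ℤ) ∣ (k : ℤ) := by
    rw [← dvd_neg, ← e4]
    exact Dvd.intro _ rfl
  have e6 := Int.le_of_dvd (by omega) e5
  push_cast at e6
  omega

/-- a local model for the prime `l` on the disc: a unit of `F2[y]/(y^q - x)`, `x = 1 + b s^e`, that
is an `l`-th power on the boundary, not an `l`-th power on the disc, with all orders divisible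
by `l`. -/
def IsModel (l q : ℕ) (x : F2 C) : Prop :=
  ∃ H : AdjoinRoot (X ^ q - Polynomial.C x : (F2 C)[X]), IsUnit H ∧
    (∃ z, z ^ l = mapB q x (F0 C) H) ∧ (¬ ∃ z, z ^ l = H) ∧
    ∀ (lam : AdjoinRoot (X ^ q - Polynomial.C x : (F2 C)[X]) →+* LaurentSeries C),
      (l : ℤ) ∣ (lam H).order

end LAa

end P025H572
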