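import Vale.Agent.P025.R2.H552.LAa
import Vale.Agent.P025.R2.H572.Model

/-!
# P025 G-LEMA, part 3 (helper572): G-LA-a as a local model
-/

open TensorProduct Polynomial P025H373

universe u

set_option linter.unusedSectionVars false

namespace P025H572

section LAa

variable {C : Type u} [NontriviallyNormedField C] [IsUltrametricDist C] [CompleteSpace C]
  [IsAlgClosed C]

/-- constants in the model algebra -/
noncomputable def cst (q : ℕ) (x : F2 C) :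
    C →+* AdjoinRoot (X ^ q - Polynomial.C x : (F2 C)[X]) :=
  (AdjoinRoot.of _).comp (algebraMap C (F2 C))

theorem mapB_cst (q : ℕ) (x : F2 C) (c : C) : mapB q x (F0 C) (cst q x c) =
    AdjoinRoot.of _ (algebraMap C (F0 C) c) := by
  change mapB q x (F0 C) (AdjoinRoot.of _ (algebraMap C (F2 C) c)) = _
  rw [mapB, AdjoinRoot.lift_of]
  rfl

theorem mapB_root (q : ℕ) (x : F2 C) : mapB q x (F0 C) (AdjoinRoot.root _) =
    AdjoinRoot.root _ := by
  rw [mapB, AdjoinRoot.lift_root]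

theorem adjoin_eq_top_of_surj {F : Type*} [Field F] {f : F[X]} {E : Type*} [Field E] [Algebra F E]
    (π : AdjoinRoot f →ₐ[F] E) (hπ : Function.Surjective π) :
    IntermediateField.adjoin F {π (AdjoinRoot.root f)} = ⊤ := by
  have h1 : Algebra.adjoin F {π (AdjoinRoot.root f)} = ⊤ := by
    rw [← Set.image_singleton, ← AlgHom.map_adjoin, AdjoinRoot.adjoinRoot_eq_top,
      Algebra.map_top]
    exact (AlgHom.range_eq_top π).2 hπ
  rw [eq_top_iff]
  intro z _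
  have h2 : z ∈ Algebra.adjoin F {π (AdjoinRoot.root f)} := by
    rw [h1]
    trivial
  exact IntermediateField.algebra_adjoin_le_adjoin F _ h2

theorem a_point [CharZero C] {p m e l : ℕ} (hp : p.Prime) (hpC : ‖(p : C)‖ < 1) (hm : 1 ≤ m)
    (hl : l.Prime) (hlp : l ≠ p) (hle : l ∣ e) (he : e ≠ 0)
    {b : C} (hb : ‖((p ^ m : ℕ) : C)‖ < ‖b‖ * ‖(e : C)‖) (hb1 : ‖b‖ < 1)
    {ζ : C} (hζ : ζ ^ p = 1) (hζ1 : ζ ≠ 1)
    {E : Type*} [Field E] [Algebra (F2 C) E]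
    (π : AdjoinRoot (X ^ (p ^ m) - Polynomial.C (xb b e) : (F2 C)[X]) →ₐ[F2 C] E)
    (hπ : Function.Surjective π) :
    ∃ ξ : C, ξ ^ (p ^ m) = 1 ∧ ∀ z : E, z ^ l ≠
      (algebraMap (F2 C) E (algebraMap C (F2 C) ξ) * π (AdjoinRoot.root _) -
        algebraMap (F2 C) E (algebraMap C (F2 C) ζ)) /
      (algebraMap (F2 C) E (algebraMap C (F2 C) ξ) * π (AdjoinRoot.root _) - 1) := by
  let algC : Algebra C E := ((algebraMap (F2 C) E).comp (algebraMap C (F2 C))).toAlgebra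
  have t1 : IsScalarTower C (F2 C) E := IsScalarTower.of_algebraMap_eq (fun c => rfl)
  obtain ⟨ξ, hξ, h⟩ := P025H552.exists_not_pow (C := C) hp hl hlp hle he hb hb1 hζ
    (one_pow p) hζ1 (E := E) (y := π (AdjoinRoot.root _)) (by
      rw [← map_pow, root_pow]
      change π (algebraMap (F2 C) _ (xb b e)) = _
      rw [AlgHom.commutes, xb, map_add, map_one, map_mul, map_pow]
      rfl) (adjoin_eq_top_of_surj π hπ)
  refine ⟨ξ, hξ, fun z hz => h z ?_⟩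
  rw [hz, map_one]
  rfl

theorem b_point [CharZero C] {p m e l : ℕ} (hp : p.Prime) (hpC : ‖(p : C)‖ < 1) (hm : 1 ≤ m)
    (hl : l.Prime) (hlp : l ≠ p)
    {b : C} (hb : ‖((p ^ m : ℕ) : C)‖ < ‖b‖ * ‖(e : C)‖)
    {ζ : C} (hζ : ζ ^ p = 1) {ξ : C} (hξ : ξ ^ (p ^ m) = 1)
    {E : Type*} [Field E] [Algebra (F0 C) E]
    (π : AdjoinRoot (X ^ (p ^ m) - Polynomial.C (algebraMap (F2 C) (F0 C) (xb b e)) : (F0 C)[X])
      →ₐ[F0 C] E) (hπ : Function.Surjective π) :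
    ∃ z : E, z ^ l =
      (algebraMap (F0 C) E (algebraMap C (F0 C) ξ) * π (AdjoinRoot.root _) -
        algebraMap (F0 C) E (algebraMap C (F0 C) ζ)) /
      (algebraMap (F0 C) E (algebraMap C (F0 C) ξ) * π (AdjoinRoot.root _) - 1) := by
  let algC : Algebra C E := ((algebraMap (F0 C) E).comp (algebraMap C (F0 C))).toAlgebra
  have t1 : IsScalarTower C (F0 C) E := IsScalarTower.of_algebraMap_eq (fun c => rfl)
  have : NeZero (p ^ m) := ⟨pow_ne_zero _ hp.ne_zero⟩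
  have hfin : FiniteDimensional (F0 C) E := Module.Finite.of_surjective π.toLinearMap hπ
  obtain ⟨z, -, hz⟩ := P025H552.exists_root_F0 (C := C) hp hpC hm hl hlp hb hζ (one_pow p)
    (E := E) (y := algebraMap (F0 C) E (algebraMap C (F0 C) ξ) * π (AdjoinRoot.root _)) (by
      rw [mul_pow, ← map_pow, ← map_pow, hξ, map_one, map_one, one_mul, ← map_pow, root_pow]
      change π (algebraMap (F0 C) _ (algebraMap (F2 C) (F0 C) (xb b e))) = _
      rw [AlgHom.commutes, coe_xb, map_add, map_one, map_mul, map_pow]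
      rfl)
  refine ⟨z, ?_⟩
  rw [hz, map_one]
  rfl

theorem b_point' [CharZero C] {p m e l : ℕ} (hp : p.Prime) (hpC : ‖(p : C)‖ < 1) (hm : 1 ≤ m)
    (hl : l.Prime) (hlp : l ≠ p)
    {b : C} (hb : ‖((p ^ m : ℕ) : C)‖ < ‖b‖ * ‖(e : C)‖)
    {ζ : C} (hζ : ζ ^ p = 1) {ξ : C} (hξ : ξ ^ (p ^ m) = 1)
    (u1 : (AdjoinRoot (X ^ (p ^ m) - Polynomial.C (xb b e) : (F2 C)[X]))ˣ)
    (hu1 : (u1 : AdjoinRoot (X ^ (p ^ m) - Polynomial.C (xb b e) : (F2 C)[X])) =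
      cst _ _ ξ * AdjoinRoot.root _ - 1)
    {E : Type*} [Field E] [Algebra (F0 C) E]
    (π : AdjoinRoot (X ^ (p ^ m) - Polynomial.C (algebraMap (F2 C) (F0 C) (xb b e)) : (F0 C)[X])
      →ₐ[F0 C] E) (hπ : Function.Surjective π) :
    ∃ z : E, z ^ l = π (mapB (p ^ m) (xb b e) (F0 C)
      ((cst _ _ ξ * AdjoinRoot.root _ - cst _ _ ζ) * ((u1⁻¹ : (AdjoinRoot _)ˣ) : AdjoinRoot _))) := by
  obtain ⟨z, hz⟩ := b_point hp hpC hm hl hlp hb hζ hξ π hπ
  refine ⟨z, ?_⟩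
  have hc : ∀ c : C, π (AdjoinRoot.of _ (algebraMap C (F0 C) c)) =
      algebraMap (F0 C) E (algebraMap C (F0 C) c) := fun c => π.commutes _
  have h6 : π (mapB (p ^ m) (xb b e) (F0 C) (u1 : AdjoinRoot _)) =
      algebraMap (F0 C) E (algebraMap C (F0 C) ξ) * π (AdjoinRoot.root _) - 1 := by
    rw [hu1, map_sub, map_mul, mapB_root, mapB_cst, map_one, map_sub, map_mul, map_one, hc]
  have h5 : π (mapB (p ^ m) (xb b e) (F0 C) (u1 : AdjoinRoot _)) ≠ 0 := by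
    intro h0
    have h7 := ((Units.isUnit u1).map (mapB (p ^ m) (xb b e) (F0 C))).map π
    rw [h0] at h7
    exact not_isUnit_zero h7
  rw [hz, div_eq_iff (by rw [← h6]; exact h5), ← h6, ← map_mul, ← map_mul, mul_assoc,
      Units.inv_mul, mul_one, map_sub, map_mul, mapB_root, mapB_cst, mapB_cst, map_sub, map_mul,
      hc, hc]

theorem lam_abs [CharZero C] {p m e l : ℕ} (hp : p.Prime) (hm : 1 ≤ m) (hle : l ∣ e)
    {b : C} (hb : b ≠ 0) {ζ : C} (hζ : ζ ^ p = 1) (hζ1 : ζ ≠ 1) {ξ : C} (hξ : ξ ^ (p ^ m) = 1)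
    {B : Type*} [CommRing B] (ι : C →+* B) (s y : B) (hs : IsUnit s)
    (hy : y ^ (p ^ m) = 1 + ι b * s ^ e)
    (u1 : Bˣ) (hu1 : (u1 : B) = ι ξ * y - 1) (hu2 : IsUnit (ι ξ * y - ι ζ))
    {E : Type*} [Field E] (lam : B →+* LaurentSeries E) (hlam : 0 ≤ (lam s).order) :
    (l : ℤ) ∣ (lam ((ι ξ * y - ι ζ) * (u1⁻¹ : Bˣ))).order := by
  let algC : Algebra C (LaurentSeries E) := (lam.comp ι).toAlgebra
  have hc : ∀ c : C, algebraMap C (LaurentSeries E) c = lam (ι c) := fun c => rfl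
  have hne : ∀ {v : B}, IsUnit v → lam v ≠ 0 := by
    intro v hv h0
    have h7 := hv.map lam
    rw [h0] at h7
    exact not_isUnit_zero h7
  obtain ⟨z, hz0, hz⟩ := P025H552.H_val (C := C) (lauO E) (fun c => by
      rw [mem_lauO, hc]
      exact (order_const (lam.comp ι) c).ge) hp hle hb
    (s := lam s) (y := lam (ι ξ * y)) (m := m) hlam (hne hs) (by
      rw [← map_pow, mul_pow, ← map_pow, hξ, map_one, one_mul, hy, hc, map_add, map_one, map_mul,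
        map_pow]) hm hζ (one_pow p) hζ1
  have h5 : lam (u1 : B) ≠ 0 := hne (Units.isUnit u1)
  have h6 : lam ((ι ξ * y - ι ζ) * (u1⁻¹ : Bˣ)) =
      (lam (ι ξ * y) - algebraMap C (LaurentSeries E) ζ) /
      (lam (ι ξ * y) - algebraMap C (LaurentSeries E) 1) := by
    rw [map_one (algebraMap C (LaurentSeries E)), hc]
    have h8 : lam (ι ξ * y) - 1 = lam (u1 : B) := by
      rw [hu1, map_sub, map_one]
    rw [h8, eq_div_iff h5, ← map_mul, mul_assoc, Units.inv_mul, mul_one, map_sub]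
  have h9 : lam ((ι ξ * y - ι ζ) * (u1⁻¹ : Bˣ)) ≠ 0 := hne (hu2.mul (Units.isUnit u1⁻¹))
  rw [← h6, ← map_pow] at hz
  rw [order_eq_of_val h9 (pow_ne_zero _ hz0) hz, HahnSeries.order_pow, nsmul_eq_mul]
  exact Dvd.intro _ rfl

theorem isModel_a [CharZero C] {p m e l : ℕ} (hp : p.Prime) (hpC : ‖(p : C)‖ < 1) (hm : 1 ≤ m)
    (hl : l.Prime) (hlp : l ≠ p) (hle : l ∣ e) (he : e ≠ 0)
    {b : C} (hb : ‖((p ^ m : ℕ) : C)‖ < ‖b‖ * ‖(e : C)‖) (hb1 : ‖b‖ < 1) :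
    IsModel l (p ^ m) (xb b e) := by
  have hb0 : b ≠ 0 := by
    rintro rfl
    rw [norm_zero, zero_mul] at hb
    exact absurd hb (not_lt.2 (norm_nonneg _))
  have hx0 : xb b e ≠ 0 := xb_ne_zero b hb1 e
  have hq0 : p ^ m ≠ 0 := pow_ne_zero _ hp.ne_zero
  have : NeZero (p ^ m) := ⟨hq0⟩
  have hred := adj_reduced (p ^ m) hq0 (xb b e) hx0
  -- the roots of unity
  obtain ⟨ζ, hζ⟩ : ∃ ζ : C, IsPrimitiveRoot ζ p := by
    have : NeZero (p : C) := ⟨by exact_mod_cast hp.ne_zero⟩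
    exact HasEnoughRootsOfUnity.exists_primitiveRoot C p
  have hζ1 : ζ ≠ 1 := hζ.ne_one hp.one_lt
  have hζq : ζ ^ (p ^ m) = 1 := by
    obtain ⟨k, rfl⟩ : ∃ k, m = k + 1 := ⟨m - 1, by omega⟩
    rw [pow_succ', pow_mul, hζ.pow_eq_one, one_pow]
  set B := AdjoinRoot (X ^ (p ^ m) - Polynomial.C (xb b e) : (F2 C)[X]) with hB
  set y : B := AdjoinRoot.root _ with hy
  have hyq : y ^ (p ^ m) = AdjoinRoot.of _ (xb b e) := root_pow _ _
  have hBnt : Nontrivial B := by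
    apply AdjoinRoot.nontrivial
    rw [degree_X_pow_sub_C (Nat.pos_of_ne_zero hq0)]
    exact_mod_cast hq0
  let ι : C →+* B := cst _ _
  have hxb : AdjoinRoot.of (X ^ (p ^ m) - Polynomial.C (xb b e) : (F2 C)[X]) (xb b e) =
      1 + AdjoinRoot.of _ (algebraMap C (F2 C) b * s2 C ^ e) := by
    have h1 : ∀ j : F2 C →+* B, j (xb b e) = 1 + j (algebraMap C (F2 C) b * s2 C ^ e) := by
      intro j
      have h2 : j (xb b e) = j (1 + algebraMap C (F2 C) b * s2 C ^ e) := rfl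
      rw [h2, map_add, map_one]
    exact h1 _
  have hunit : ∀ ξ z : C, ξ ^ (p ^ m) = 1 → z ^ (p ^ m) = 1 → IsUnit (ι ξ * y - ι z) := by
    intro ξ z hξ hz
    have h1 : (ι ξ * y - ι z) ∣ (ι ξ * y) ^ (p ^ m) - (ι z) ^ (p ^ m) := sub_dvd_pow_sub_pow _ _ _
    have h2 : (ι ξ * y) ^ (p ^ m) - (ι z) ^ (p ^ m) =
        AdjoinRoot.of _ (algebraMap C (F2 C) b * s2 C ^ e) := by
      rw [mul_pow, ← map_pow, hξ, ← map_pow, hz, map_one, one_mul, hyq, hxb]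
      ring
    rw [h2] at h1
    refine isUnit_of_dvd_unit h1 (IsUnit.map _ (isUnit_iff_ne_zero.2 ?_))
    exact mul_ne_zero (by simpa using hb0) (pow_ne_zero _ (s2_ne_zero C))
  have hunit1 : ∀ ξ : C, ξ ^ (p ^ m) = 1 → IsUnit (ι ξ * y - 1) := by
    intro ξ hξ
    have := hunit ξ 1 hξ (one_pow _)
    rwa [map_one] at this
  obtain ⟨N, hN⟩ := Ideal.exists_maximal B
  obtain ⟨ξ, hξ, hnot⟩ : ∃ ξ : C, ξ ^ (p ^ m) = 1 ∧ ∀ z : B ⧸ N, 
      z ^ l * Ideal.Quotient.mk N (ι ξ * y - 1) ≠ Ideal.Quotient.mk N (ι ξ * y - ι ζ) := by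
    let fE : Field (B ⧸ N) := Ideal.Quotient.field N
    obtain ⟨ξ, hξ, h⟩ := a_point hp hpC hm hl hlp hle he hb hb1 hζ.pow_eq_one hζ1
      (E := B ⧸ N) (Ideal.Quotient.mkₐ (F2 C) N) (Ideal.Quotient.mkₐ_surjective _ _)
    refine ⟨ξ, hξ, fun z hz => h z ?_⟩
    have h3 : (Ideal.Quotient.mk N (ι ξ * y - 1)) ≠ 0 := by
      intro h0
      have := (hunit1 ξ hξ).map (Ideal.Quotient.mk N)
      rw [h0] at this
      exact not_isUnit_zero this
    rw [eq_div_iff]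
    · exact hz
    · exact h3
  obtain ⟨u1, hu1⟩ := hunit1 ξ hξ
  refine ⟨(ι ξ * y - ι ζ) * (u1⁻¹ : Bˣ), (hunit ξ ζ hξ hζq).mul (Units.isUnit _), ?_, ?_, ?_⟩
  · -- the boundary
    have hx00 : algebraMap (F2 C) (F0 C) (xb b e) ≠ 0 := by simpa using hx0
    have hch : CharZero (F0 C) := charZero_of_injective_algebraMap (algebraMap C (F0 C)).injective
    have hred0 := adj_reduced (p ^ m) hq0 (algebraMap (F2 C) (F0 C) (xb b e)) hx00
    apply isPow_of_forall_maximal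
    intro N0
    let fE : Field (AdjoinRoot (X ^ (p ^ m) - Polynomial.C (algebraMap (F2 C) (F0 C) (xb b e)) :
      (F0 C)[X]) ⧸ N0.asIdeal) := Ideal.Quotient.field _
    exact b_point' hp hpC hm hl hlp hb hζ.pow_eq_one hξ u1 hu1
      (Ideal.Quotient.mkₐ (F0 C) N0.asIdeal) (Ideal.Quotient.mkₐ_surjective _ _)
  · rintro ⟨z, hz⟩
    apply hnot (Ideal.Quotient.mk N z)
    rw [← map_pow, ← map_mul, hz, ← hu1, mul_assoc, Units.inv_mul, mul_one]
  · intro lam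
    exact lam_abs hp hm hle hb0 hζ.pow_eq_one hζ1 hξ ι (AdjoinRoot.of _ (s2 C)) y
      (IsUnit.map _ (isUnit_iff_ne_zero.2 (s2_ne_zero C)))
      (by rw [hyq, hxb, map_mul, map_pow]; rfl) u1 hu1 (hunit ξ ζ hξ hζq) lam
      (order_s2_nonneg (lam.comp (AdjoinRoot.of _)))

end LAa

end P025H572
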