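import Vale.Agent.P025.R2.H492.Ext5

/-!
# P025 G-LEMA, part 4 (helper572): the Kummer extension `K(f^(1/p^m))`
-/

open Vale.Agent.P019P IntermediateField Polynomial

namespace P025H572

section kummer

variable {k K L : Type*} [Field k] [Field K] [Field L] [Algebra k K] [Algebra k L]
  [Algebra K L] [IsScalarTower k K L] [CFF k K]

/-- the root set generates. -/
theorem adjoin_rootSet_eq_top (g : K[X]) [IsSplittingField K L g] :
    adjoin K (g.rootSet L) = ⊤ := by
  rw [eq_top_iff]
  intro z _
  have h2 : z ∈ Algebra.adjoin K (g.rootSet L) := by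
    rw [IsSplittingField.adjoin_rootSet]
    trivial
  exact algebra_adjoin_le_adjoin K _ h2

theorem root_iff {q : ℕ} {f : K} {y : L}
    (hy : y ∈ (X ^ q - C f : K[X]).rootSet L) : y ^ q = algebraMap K L f := by
  have h := (mem_rootSet.1 hy).2
  simpa [sub_eq_zero] using h

include k in
/-- the Kummer extension is finite and a function field. -/
theorem kummer_cff {q : ℕ} (f : K) [IsSplittingField K L (X ^ q - C f : K[X])] :
    FiniteDimensional K L ∧ CFF k L := by
  have hfin : FiniteDimensional K L := IsSplittingField.finiteDimensional L (X ^ q - C f)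
  exact ⟨hfin, P025H492.cff_of_finite (K := K)⟩

variable [CFF k L]

include k in
/-- the Kummer extension is Galois. -/
theorem kummer_galois [CharZero k] {q : ℕ} (hq : q ≠ 0) (f : K)
    [IsSplittingField K L (X ^ q - C f : K[X])] : IsGalois K L := by
  have hqk : (q : k) ≠ 0 := by exact_mod_cast hq
  have hfin : FiniteDimensional K L := IsSplittingField.finiteDimensional L (X ^ q - C f)
  exact P025H492.isGalois_radicals (k := k) (adjoin_rootSet_eq_top (L := L) (X ^ q - C f : K[X]))
    fun y hy => ⟨q, f, hqk, root_iff hy⟩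

/-- the Kummer extension is unramified. -/
theorem kummer_unr [CharZero k] {q : ℕ} (hq : q ≠ 0) (f : K)
    (hf : ∀ P : Plk k K, (q : ℤ) ∣ ord P f)
    [IsSplittingField K L (X ^ q - C f : K[X])] [FiniteDimensional K L] :
    P025H492.IsUnr k K L := by
  have hqk : (q : k) ≠ 0 := by exact_mod_cast hq
  exact P025H492.isUnr_radicals (k := k) (adjoin_rootSet_eq_top (L := L) (X ^ q - C f : K[X]))
    fun y hy => ⟨q, f, hqk, root_iff hy, hf⟩

include k in
/-- the Kummer extension has `p`-power degree. -/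
theorem kummer_degree [CharZero k] {p m : ℕ} (hp : p.Prime) {f : K} (hf0 : f ≠ 0)
    [IsSplittingField K L (X ^ (p ^ m) - C f : K[X])] :
    ∃ n, Module.finrank K L = p ^ n := by
  have hac : IsAlgClosed k := CFF.ac (k := k) (F := K)
  have hq : p ^ m ≠ 0 := pow_ne_zero _ hp.ne_zero
  have hfin : FiniteDimensional K L := IsSplittingField.finiteDimensional L (X ^ (p ^ m) - C f)
  have hS := adjoin_rootSet_eq_top (L := L) (X ^ (p ^ m) - C f : K[X])
  have hgal : IsGalois K L := kummer_galois (k := k) hq f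
  rw [← IsGalois.card_aut_eq_finrank]
  have : Fact p.Prime := ⟨hp⟩
  rw [← IsPGroup.iff_card]
  intro σ
  refine ⟨m, ?_⟩
  -- `σ ^ q` fixes all roots
  have h1 : ∀ y ∈ (X ^ (p ^ m) - C f : K[X]).rootSet L, (σ ^ (p ^ m)) y = y := by
    intro y hy
    have hy1 := root_iff hy
    have hy0 : y ≠ 0 := by
      rintro rfl
      rw [zero_pow hq] at hy1
      exact hf0 ((map_eq_zero _).1 hy1.symm)
    have h2 : (σ y / y) ^ (p ^ m) = 1 := by
      rw [div_pow, ← map_pow, hy1, AlgEquiv.commutes, div_self]
      rw [← hy1]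
      exact pow_ne_zero _ hy0
    obtain ⟨ζ, hζ⟩ : ∃ ζ : k, algebraMap k L ζ = σ y / y := by
      have h1 : IsIntegral k (σ y / y) := ⟨X ^ (p ^ m) - 1, monic_X_pow_sub_C 1 hq, by
        rw [eval₂_sub, eval₂_X_pow, h2, eval₂_one, sub_self]⟩
      obtain ⟨c, hc⟩ := minpoly.mem_range_of_degree_eq_one k (σ y / y)
        (IsAlgClosed.degree_eq_one_of_irreducible k (minpoly.irreducible h1))
      exact ⟨c, hc⟩
    have h3 : σ y = algebraMap k L ζ * y := by
      rw [hζ, div_mul_cancel₀ _ hy0]
    have h4 : ∀ n : ℕ, (σ ^ n) y = algebraMap k L (ζ ^ n) * y := by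
      intro n
      induction n with
      | zero => simp
      | succ n ih =>
        rw [pow_succ', AlgEquiv.mul_apply, ih, map_mul, h3,
          IsScalarTower.algebraMap_apply k K L, AlgEquiv.commutes, pow_succ, map_mul,
          ← IsScalarTower.algebraMap_apply k K L]
        simp only [map_mul, IsScalarTower.algebraMap_apply k K L]
        ring
    rw [h4, map_pow, hζ, h2, one_mul]
  apply AlgEquiv.ext
  intro x
  have h2 : adjoin K ((X ^ (p ^ m) - C f : K[X]).rootSet L) ≤
      fixedField (Subgroup.zpowers (σ ^ (p ^ m))) := by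
    rw [adjoin_le_iff]
    intro y hy
    show y ∈ fixedField (Subgroup.zpowers (σ ^ (p ^ m)))
    rw [mem_fixedField_iff]
    rintro τ ⟨i, rfl⟩
    have h3 : σ ^ (p ^ m) ∈ MulAction.stabilizer (L ≃ₐ[K] L) y := h1 y hy
    exact (zpow_mem h3 i : (σ ^ (p ^ m)) ^ i ∈ MulAction.stabilizer (L ≃ₐ[K] L) y)
  rw [hS, top_le_iff] at h2
  have h3 : x ∈ fixedField (Subgroup.zpowers (σ ^ (p ^ m))) := h2 ▸ mem_top
  rw [mem_fixedField_iff] at h3
  exact h3 _ (Subgroup.mem_zpowers _)

end kummer

end P025H572
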