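import Vale.Agent.P025.R2.H572.Model
import Vale.Agent.P025.R2.H572.Kum
import Vale.Agent.P025.R2.H210.Disc
import Vale.Agent.P025.R2.H731.OnD
import Vale.Agent.P025.R2.H552.LauK

/-!
# P025 G-LEMA, part 5 (helper572): from a normal form on one disc to a Kummer cover with a
function that is an `l`-th power outside the disc and not inside.
-/

open Polynomial TensorProduct P025H373 P025H544 P025H628 P025H492 Vale.Agent.P019P

universe u v

set_option linter.unusedSectionVars false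

namespace P025H572

noncomputable section

variable {C : Type u} [NontriviallyNormedField C] [IsUltrametricDist C] [CompleteSpace C]
  [IsAlgClosed C] [CharZero C]

/-- OB. every place of `L` lives on the `V`-side or on the `D`-side. -/
theorem exists_lam (c : Cˣ) {L : Type v} [Field L] [Algebra C L] [Algebra (RatFunc C) L]
    [IsScalarTower C (RatFunc C) L] [FiniteDimensional (RatFunc C) L] [CFF C L] (P' : Plk C L) :
    (∃ lam : F1r C c ⊗[RatFunc C] L →+* LaurentSeries C,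
      ∀ x : L, x ≠ 0 → (lam (1 ⊗ₜ x)).order = ord P' x) ∨
    (∃ lam : F2r C c ⊗[RatFunc C] L →+* LaurentSeries C,
      ∀ x : L, x ≠ 0 → (lam (1 ⊗ₜ x)).order = ord P' x) := by
  obtain ⟨s, hs0, hs⟩ := exists_unif P'
  obtain ⟨φ, -, hφ⟩ := P025H552.exists_lau P' s hs
  by_cases h : down (RatFunc C) P' ∈ P025H731.Inn C (c : C)
  · obtain ⟨Ψ, h1, -, -⟩ := (P025H731.side1r c).exists_ext P' h φ hφ
    exact Or.inl ⟨Ψ, fun x hx => by rw [← hφ x hx, ← h1 x]; rfl⟩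
  · obtain ⟨Ψ, h1, -, -⟩ := (P025H731.side2r c).exists_ext P' h φ hφ
    exact Or.inr ⟨Ψ, fun x hx => by rw [← hφ x hx, ← h1 x]; rfl⟩

variable {K : Type v} [Field K] [Algebra C K] [Algebra (RatFunc C) K]
  [IsScalarTower C (RatFunc C) K] [FiniteDimensional (RatFunc C) K] [CFF C K]

/-- restriction of an automorphism of `F0` to `F2`. -/
def autF2 (α : F0 C ≃ₐ[C] F0 C) (hα : ∀ x, α x ∈ F2 C ↔ x ∈ F2 C) : F2 C ≃+* F2 C where
  toFun x := ⟨α x, (hα x).2 x.2⟩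
  invFun x := ⟨α.symm x, (hα _).1 (by rw [AlgEquiv.apply_symm_apply]; exact x.2)⟩
  left_inv x := Subtype.ext (α.symm_apply_apply _)
  right_inv x := Subtype.ext (α.apply_symm_apply _)
  map_mul' x y := Subtype.ext (map_mul α _ _)
  map_add' x y := Subtype.ext (map_add α _ _)

theorem coe_autF2 (α : F0 C ≃ₐ[C] F0 C) (hα : ∀ x, α x ∈ F2 C ↔ x ∈ F2 C) (x : F2 C) :
    ((autF2 α hα x : F2 C) : F0 C) = α x := rfl

section ch

variable (D : P025H210.Charts C K) (P : P025H210.Pole C K) (hP : ∀ P' : P025H210.Pole C K, P' = P)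
  (γ c : Cˣ) (hc : γ ^ P.N = c) (hr : D.r0 ≤ ‖(c : C)‖)

include hP in
theorem ch2_bijective : Function.Bijective (D.ch2 P γ c hc hr) := by
  refine ⟨?_, D.ch2_surjective P γ c hc hr⟩
  have h := (D.bij2 c hr (fun _ => γ) (fun P' => by rw [hP P']; exact hc)).1
  intro x y hxy
  apply h
  funext P'
  obtain rfl := hP P'
  exact hxy

include hP in
theorem ch0_bijective : Function.Bijective (D.ch0 P γ c hc hr) := by
  refine ⟨?_, D.ch0_surjective P γ c hc hr⟩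
  have h := (D.bij0 c hr (fun _ => γ) (fun P' => by rw [hP P']; exact hc)).1
  intro x y hxy
  apply h
  funext P'
  obtain rfl := hP P'
  exact hxy

end ch

theorem rnsAt_raw (D : P025H210.Charts C K) (P : P025H210.Pole C K)
    (hP : ∀ P' : P025H210.Pole C K, P' = P)
    (γ c : Cˣ) (hc : γ ^ P.N = c) (hr : D.r0 ≤ ‖(c : C)‖)
    (α : F0 C ≃ₐ[C] F0 C) (hα : ∀ x, α x ∈ F2 C ↔ x ∈ F2 C)
    {l q : ℕ} (hl : l ≠ 0) (hq : q ≠ 0) (f : K) (hf : f ≠ 0)
    (x : F2 C) (hx : x ≠ 0) (g : F0 C) (hg : g ∈ F2 C) (hg0 : g ≠ 0)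
    (heq : α (D.ψ P γ f : F0 C) = (x : F0 C) * g ^ q) (hmod : IsModel l q x)
    {L : Type v} [Field L] [Algebra C L] [Algebra K L] [Algebra (RatFunc C) L]
    [IsScalarTower C K L] [IsScalarTower (RatFunc C) K L] [IsScalarTower C (RatFunc C) L]
    [IsSplittingField K L (X ^ q - Polynomial.C f : K[X])] [FiniteDimensional (RatFunc C) L]
    [CFF C L] :
    ∃ β : L, β ≠ 0 ∧ (∀ P' : Plk C L, (l : ℤ) ∣ ord P' β) ∧
      (∃ a : F1r C c ⊗[RatFunc C] L, a ^ l = 1 ⊗ₜ β) ∧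
      (¬ ∃ b : F2r C c ⊗[RatFunc C] L, b ^ l = 1 ⊗ₜ β) := by
  obtain ⟨H, hHu, hH0, hHn, hlam⟩ := hmod
  let e2' : F2r C c ⊗[RatFunc C] K ≃+* F2 C :=
    RingEquiv.ofBijective (D.ch2 P γ c hc hr) (ch2_bijective D P hP γ c hc hr)
  let e2 : F2r C c ⊗[RatFunc C] K ≃+* F2 C := e2'.trans (autF2 α hα)
  let e0' : F0r C c ⊗[RatFunc C] K ≃+* F0 C :=
    RingEquiv.ofBijective (D.ch0 P γ c hc hr) (ch0_bijective D P hP γ c hc hr)
  let e0 : F0r C c ⊗[RatFunc C] K ≃+* F0 C := e0'.trans α.toRingEquiv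
  let i2 : K →+* F2 C := (autF2 α hα).toRingHom.comp (D.ψ P γ).toRingHom
  let algK2 : Algebra K (F2 C) := i2.toAlgebra
  have he2 : ∀ z : K, e2 (1 ⊗ₜ z) = algebraMap K (F2 C) z := by
    intro z
    change autF2 α hα (D.ch2 P γ c hc hr (1 ⊗ₜ z)) = autF2 α hα (D.ψ P γ z)
    rw [D.ch2_tmul]
    congr 1
    have : (P025H210.pow2 P.N P.N_pos) (show F2 C from (1 : F2r C c)) = 1 := map_one _
    rw [this, one_mul]
  have hκ0 : ∀ w : F2r C c ⊗[RatFunc C] K,
      e0.symm (algebraMap (F2 C) (F0 C) (e2 w)) = bc (RatFunc C) (F2r C c) (F0r C c) K w := by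
    intro w
    rw [RingEquiv.symm_apply_eq]
    change α (D.ch2 P γ c hc hr w : F0 C) = α (D.ch0 P γ c hc hr (bc _ _ _ K w))
    rw [D.ch0_bc]
  have hfin : FiniteDimensional K L := FiniteDimensional.right (RatFunc C) K L
  have hsplit : IsSplittingField K L (X ^ (1 * q) - Polynomial.C f : K[X]) := by
    rw [one_mul]; infer_instance
  have hg2 : (⟨g, hg⟩ : F2 C) ≠ 0 := fun h => hg0 (congrArg Subtype.val h)
  have hfx : algebraMap K (F2 C) f = (x * (⟨g, hg⟩ : F2 C) ^ q) ^ 1 := by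
    rw [pow_one]
    apply Subtype.ext
    exact heq
  obtain ⟨β, φ, hβ, ⟨a, ha⟩, hnb, ⟨t, ht⟩, -⟩ := lemA_glue (L := L) C (P025H628.patch (C := C) c)
    e2 he2 (e0.symm : F0 C →+* F0r C c ⊗[RatFunc C] K) hκ0 1 q l one_ne_zero hq hl f hf x
    (⟨g, hg⟩ : F2 C) hx hg2 hfx H hHu hHn hH0
  refine ⟨β, hβ, ?_, ⟨a, ha⟩, hnb⟩
  intro P'
  rcases exists_lam (C := C) c P' with ⟨lam, hl'⟩ | ⟨lam, hl'⟩
  · rw [← hl' β hβ, ← ha, map_pow, HahnSeries.order_pow]
    exact ⟨_, nsmul_eq_mul _ _⟩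
  · have h1 : lam (1 ⊗ₜ β) ≠ 0 := by
      have h2 : (lam.comp (Algebra.TensorProduct.includeRight :
        L →ₐ[RatFunc C] F2r C c ⊗[RatFunc C] L).toRingHom) β ≠ 0 := by
        rw [Ne, map_eq_zero]
        exact hβ
      exact h2
    rw [← hl' β hβ, ht, map_mul, map_pow, HahnSeries.order_mul, HahnSeries.order_pow]
    · exact dvd_add (hlam (lam.comp φ)) ⟨_, nsmul_eq_mul _ _⟩
    · intro h0
      apply h1
      rw [ht, map_mul, h0, zero_mul]
    · intro h0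
      apply h1
      rw [ht, map_mul, map_pow, h0, mul_zero]


open P025H450 P025H837

theorem onD_dP (D : P025H210.Charts C K) (P : P025H210.Pole C K)
    (γ c : Cˣ) (hc : γ ^ P.N = c) (hr : D.r0 ≤ ‖(c : C)‖) :
    OnD C c P.1 (D.dP c hr P) := by
  have hch : ∀ z : C, D.ch2 P γ c hc hr (algebraMap C _ z) = algebraMap C (F2 C) z := by
    intro z
    rw [Algebra.TensorProduct.algebraMap_apply, D.ch2_tmul, map_one, mul_one]
    exact (P025H210.pow2 P.N P.N_pos).commutes z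
  let φ0 : F2r C c ⊗[RatFunc C] K →ₐ[C] F2 C := { D.ch2 P γ c hc hr with commutes' := hch }
  refine ⟨P025H210.lamInf.comp φ0, ?_, ?_⟩
  · rw [← D.ker_ch2 P γ c hc hr]
    ext z
    rw [RingHom.mem_ker, RingHom.mem_ker]
    change P025H210.lamInf (D.ch2 P γ c hc hr z) = 0 ↔ _
    exact map_eq_zero _
  · intro x hx
    have h1 : (P025H210.lamInf.comp φ0) ((1 : F2r C c) ⊗ₜ[RatFunc C] x) =
        P025H210.lamInf (D.ψ P γ x) := by
      change P025H210.lamInf (D.ch2 P γ c hc hr (1 ⊗ₜ x)) = _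
      rw [D.ch2_tmul]
      have : (P025H210.pow2 P.N P.N_pos) (show F2 C from (1 : F2r C c)) = 1 := map_one _
      rw [this, one_mul]
    rw [h1]
    refine D.order_eq P γ ?_ x hx
    rw [← hc] at hr
    simpa using hr

theorem rnsAt_abs (D : P025H210.Charts C K) (P : P025H210.Pole C K)
    (hP : ∀ P' : P025H210.Pole C K, P' = P)
    (γ c : Cˣ) (hc : γ ^ P.N = c) (hr : D.r0 ≤ ‖(c : C)‖)
    (α : F0 C ≃ₐ[C] F0 C) (hα : ∀ x, α x ∈ F2 C ↔ x ∈ F2 C)
    {l p m : ℕ} (hl : l ≠ 0) (hp : p.Prime) (f : K) (hf : f ≠ 0)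
    (hdiv : ∀ P' : Plk C K, ((p ^ m : ℕ) : ℤ) ∣ ord P' f)
    (x : F2 C) (hx : x ≠ 0) (g : F0 C) (hg : g ∈ F2 C) (hg0 : g ≠ 0)
    (heq : α (D.ψ P γ f : F0 C) = (x : F0 C) * g ^ (p ^ m)) (hmod : IsModel l (p ^ m) x)
    {L : Type v} [Field L] [Algebra C L] [Algebra K L] [Algebra (RatFunc C) L]
    [IsScalarTower C K L] [IsScalarTower (RatFunc C) K L] [IsScalarTower C (RatFunc C) L]
    [IsSplittingField K L (X ^ (p ^ m) - Polynomial.C f : K[X])] :
    RNSat C p l P.1 c := by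
  have hq : p ^ m ≠ 0 := pow_ne_zero _ hp.ne_zero
  obtain ⟨hfin, hcff⟩ := kummer_cff (k := C) (L := L) f (q := p ^ m)
  have hfin' : FiniteDimensional (RatFunc C) L := FiniteDimensional.trans (RatFunc C) K L
  obtain ⟨β, hβ, hord, hV, hnb⟩ := rnsAt_raw D P hP γ c hc hr α hα hl hq f hf x hx g hg hg0 heq
    hmod (L := L)
  have hgal : IsGalois K L := kummer_galois (k := C) hq f
  obtain ⟨n, hn⟩ := kummer_degree (k := C) (L := L) hp (m := m) hf
  have hred : IsReduced (F2r C c ⊗[RatFunc C] L) := tensor_reduced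
  have hart : IsArtinianRing (F2r C c ⊗[RatFunc C] L) :=
    IsArtinianRing.of_finite (F2r C c) (F2r C c ⊗[RatFunc C] L)
  refine ⟨L, inferInstance, inferInstance, inferInstance, inferInstance, inferInstance,
    inferInstance, inferInstance, hcff, ⟨hfin, hgal, ?_, ⟨n, hn.dvd⟩, ?_⟩, β, hβ, hord, hV, ?_⟩
  · have hcard : Nat.card (L ≃ₐ[K] L) = p ^ n := by
      rw [IsGalois.card_aut_eq_finrank, hn]
    have hfact : Fact p.Prime := ⟨hp⟩
    have hnil : Group.IsNilpotent (L ≃ₐ[K] L) := (IsPGroup.of_card hcard).isNilpotent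
    exact IsNilpotent.to_isSolvable
  · intro _ _ Q
    exact kummer_unr hq f hdiv Q
  · -- the maximal ideal
    have h1 : ∃ M : MaximalSpectrum (F2r C c ⊗[RatFunc C] L),
        ¬ ∃ z : (F2r C c ⊗[RatFunc C] L) ⧸ M.asIdeal, z ^ l = Ideal.Quotient.mk M.asIdeal
          ((1 : F2r C c) ⊗ₜ[RatFunc C] β) := by
      by_contra hcon
      push Not at hcon
      obtain ⟨b, hb⟩ := isPow_of_forall_maximal l ((1 : F2r C c) ⊗ₜ[RatFunc C] β) hcon
      exact hnb ⟨b, hb⟩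
    obtain ⟨M, hM⟩ := h1
    refine ⟨⟨M.asIdeal, inferInstance⟩, ?_, ?_⟩
    · obtain ⟨P', hP'⟩ := (D.dP_bijective c hr).2 (ptMap (RatFunc C) (F2r C c)
        (IsScalarTower.toAlgHom (RatFunc C) K L) ⟨M.asIdeal, inferInstance⟩)
      rw [← hP', hP P']
      exact onD_dP D P γ c hc hr
    · intro z hz
      apply hM
      refine ⟨Ideal.Quotient.mk M.asIdeal z, ?_⟩
      rw [← map_pow, Ideal.Quotient.eq]
      exact hz

theorem rnsAt_of_local (D : P025H210.Charts C K) (P : P025H210.Pole C K)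
    (hP : ∀ P' : P025H210.Pole C K, P' = P)
    (γ c : Cˣ) (hc : γ ^ P.N = c) (hr : D.r0 ≤ ‖(c : C)‖)
    (α : F0 C ≃ₐ[C] F0 C) (hα : ∀ x, α x ∈ F2 C ↔ x ∈ F2 C)
    {l p m : ℕ} (hl : l ≠ 0) (hp : p.Prime) (f : K) (hf : f ≠ 0)
    (hdiv : ∀ P' : Plk C K, ((p ^ m : ℕ) : ℤ) ∣ ord P' f)
    (x : F2 C) (hx : x ≠ 0) (g : F0 C) (hg : g ∈ F2 C) (hg0 : g ≠ 0)
    (heq : α (D.ψ P γ f : F0 C) = (x : F0 C) * g ^ (p ^ m)) (hmod : IsModel l (p ^ m) x) :
    RNSat C p l P.1 c := by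
  let L := SplittingField (X ^ (p ^ m) - Polynomial.C f : K[X])
  have htow : IsScalarTower C (RatFunc C) L := IsScalarTower.of_algebraMap_eq fun x => by
    rw [IsScalarTower.algebraMap_apply C K L, IsScalarTower.algebraMap_apply C (RatFunc C) K,
      ← IsScalarTower.algebraMap_apply (RatFunc C) K L]
  exact rnsAt_abs D P hP γ c hc hr α hα hl hp f hf hdiv x hx g hg hg0 heq hmod (L := L)

end

end P025H572
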