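import Vale.Agent.P025.R2.H210.Disc
import Vale.Agent.P025.R2.H469.OrdAnn
import Vale.Agent.P025.R2.H907.LocSpec
import Vale.Agent.P025.R2.H572.Model

/-!
# P025 G-LEMA, T2a (helper572): divisibility of orders on a disc
-/

open Polynomial TensorProduct P025H373 P025H544 P025H628 P025H907 Vale.Agent.P019P

set_option linter.unusedSectionVars false

universe u v

namespace P025H572

noncomputable section

variable {C : Type u} [NontriviallyNormedField C] [IsUltrametricDist C] [CompleteSpace C]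
  [IsAlgClosed C]

/-- `x = t ^ k * y ^ n * w`, `y ∈ F2`, `w` a unit of `A2`. -/
def NF (n : ℕ) (k : ℤ) (x : F0 C) : Prop :=
  ∃ y ∈ F2 C, y ≠ 0 ∧ ∃ w, U2 w ∧ x = tt C ^ k * y ^ n * w

theorem U2.one : U2 (1 : F0 C) := ⟨(A2 C).one_mem, by rw [inv_one]; exact (A2 C).one_mem,
  one_ne_zero⟩

theorem NF.mul {n : ℕ} {k k' : ℤ} {x x' : F0 C} (h : NF n k x) (h' : NF n k' x') :
    NF n (k + k') (x * x') := by
  obtain ⟨y, hy, hy0, w, hw, rfl⟩ := h
  obtain ⟨y', hy', hy0', w', hw', rfl⟩ := h'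
  refine ⟨y * y', (F2 C).mul_mem hy hy', mul_ne_zero hy0 hy0', w * w', hw.mul hw', ?_⟩
  rw [zpow_add₀ tt_ne0, mul_pow]
  ring

theorem NF.of_unit {n : ℕ} {w : F0 C} (hw : U2 w) : NF n 0 w :=
  ⟨1, (F2 C).one_mem, one_ne_zero, w, hw, by simp⟩

theorem NF.prod {n : ℕ} {ι : Type*} (s : Finset ι) (k : ι → ℤ) (x : ι → F0 C)
    (h : ∀ i ∈ s, NF n (k i) (x i)) : NF n (∑ i ∈ s, k i) (∏ i ∈ s, x i) := by
  classical
  induction s using Finset.induction_on with
  | empty => simpa using NF.of_unit U2.one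
  | insert a s ha ih =>
    rw [Finset.prod_insert ha, Finset.sum_insert ha]
    exact (h a (Finset.mem_insert_self _ _)).mul
      (ih fun i hi => h i (Finset.mem_insert_of_mem hi))

theorem U2.zpow {w : F0 C} (hw : U2 w) (k : ℤ) : U2 (w ^ k) := by
  obtain ⟨k, rfl | rfl⟩ := k.eq_nat_or_neg
  · rw [zpow_natCast]; exact hw.pow k
  · rw [zpow_neg, zpow_natCast]; exact (hw.pow k).inv

/-- a zero inside `|t| ≤ 1` -/
theorem NF.inner {n : ℕ} {b : C} (hb : ‖b‖ ≤ 1) (k : ℤ) :
    NF n k ((tt C - algebraMap C (F0 C) b) ^ k) := by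
  refine ⟨1, (F2 C).one_mem, one_ne_zero, (aeval (tt C) (X - Polynomial.C b) *
    (tt C)⁻¹ ^ (X - Polynomial.C b).natDegree) ^ k,
    U2.zpow (monic_unit (monic_X_sub_C b) (by
      intro a ha
      rw [roots_X_sub_C, Multiset.mem_singleton] at ha
      rw [ha]
      exact hb)) k, ?_⟩
  rw [one_pow, mul_one, ← mul_zpow, natDegree_X_sub_C, pow_one]
  congr 1
  rw [map_sub, aeval_X, aeval_C]
  field_simp [tt_ne0 (C := C)]

/-- a zero outside -/
theorem NF.outer {n : ℕ} {b : C} {k : ℤ} (hk : (n : ℤ) ∣ k) :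
    NF n 0 ((tt C - algebraMap C (F0 C) b) ^ k) := by
  obtain ⟨m, rfl⟩ := hk
  have h0 : tt C - algebraMap C (F0 C) b ≠ 0 := by
    have := P025H469.lin_ne_zero (C := C) one_ne_zero b
    rwa [map_one, one_mul] at this
  refine ⟨(tt C - algebraMap C (F0 C) b) ^ m, ?_, zpow_ne_zero _ h0, 1, U2.one, ?_⟩
  · exact zpow_mem ((F2 C).sub_mem tt_mem_F2 ((F2 C).algebraMap_mem (RatFunc.C b))) m
  · rw [zpow_zero, one_mul, mul_one, ← zpow_natCast, ← zpow_mul, mul_comm]

theorem NF.divOn {n : ℕ} {k : ℤ} (hk : (n : ℤ) ∣ k) {x : F0 C} (h : NF n k x) : DivOn n x := by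
  obtain ⟨m, rfl⟩ := hk
  obtain ⟨y, hy, hy0, w, hw, rfl⟩ := h
  refine ⟨tt C ^ m * y, (F2 C).mul_mem (zpow_mem tt_mem_F2 m) hy,
    mul_ne_zero (zpow_ne_zero _ tt_ne0) hy0, w, hw, ?_⟩
  rw [mul_pow, ← zpow_natCast (tt C ^ m) n, ← zpow_mul, mul_comm m]

theorem order_lamInf_nonneg {x : F2 C} (hx : (x : F0 C) ∈ A2 C) :
    0 ≤ (P025H210.lamInf x).order := by
  obtain ⟨g, hg⟩ := P025H210.lamInf_A2 x hx
  rw [hg]
  by_contra hneg
  push Not at hneg
  have h1 : (HahnSeries.ofPowerSeries ℤ C g).coeff (HahnSeries.ofPowerSeries ℤ C g).order = 0 := by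
    rw [PowerSeries.coeff_coe, if_pos hneg]
  rw [HahnSeries.coeff_order_eq_zero] at h1
  rw [h1, HahnSeries.order_zero] at hneg
  exact lt_irrefl _ hneg

theorem order_lamInf_U2 {x : F2 C} (hx : U2 (x : F0 C)) : (P025H210.lamInf x).order = 0 := by
  have h1 := order_lamInf_nonneg hx.1
  have h2 := order_lamInf_nonneg (x := x⁻¹) hx.2.1
  rw [map_inv₀, order_inv'] at h2
  omega

theorem order_lamInf_lin (b : C) :
    (P025H210.lamInf (P025H210.t2 - algebraMap C (F2 C) b)).order = -1 := by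
  rw [map_sub, P025H210.lamInf_t2, AlgHom.commutes]
  by_cases hb : b = 0
  · rw [hb, map_zero, sub_zero, HahnSeries.order_single one_ne_zero]
  · have hC : algebraMap C (LaurentSeries C) b ≠ 0 := (_root_.map_ne_zero _).2 hb
    have e : HahnSeries.single (-1 : ℤ) (1 : C) - algebraMap C (LaurentSeries C) b =
        algebraMap C (LaurentSeries C) (-b) *
          (1 + algebraMap C (LaurentSeries C) (-b⁻¹) * HahnSeries.single (-1 : ℤ) (1 : C)) := by
      rw [mul_add, mul_one, ← mul_assoc, ← map_mul]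
      have : -b * -b⁻¹ = 1 := by field_simp
      rw [this, (algebraMap C (LaurentSeries C)).map_one, one_mul, map_neg]
      ring
    have h1 : (algebraMap C (LaurentSeries C) (-b⁻¹) * HahnSeries.single (-1 : ℤ) (1 : C)).order =
        -1 := by
      rw [HahnSeries.order_mul ((_root_.map_ne_zero _).2 (neg_ne_zero.2 (inv_ne_zero hb)))
        (HahnSeries.single_ne_zero one_ne_zero), order_const, HahnSeries.order_single one_ne_zero,
        zero_add]
    have h2 := order_one_add (z := algebraMap C (LaurentSeries C) (-b⁻¹) *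
      HahnSeries.single (-1 : ℤ) (1 : C)) (by rw [h1]; omega)
    rw [h1] at h2
    have h3 : (1 + algebraMap C (LaurentSeries C) (-b⁻¹) * HahnSeries.single (-1 : ℤ) (1 : C)) ≠ 0 := by
      intro h0
      rw [h0, HahnSeries.order_zero] at h2
      omega
    rw [e, HahnSeries.order_mul ((_root_.map_ne_zero _).2 (neg_ne_zero.2 hb)) h3, order_const, h2,
      zero_add]

theorem order_zpow' {k : Type*} [Field k] {z : LaurentSeries k} (hz : z ≠ 0) (n : ℤ) :
    (z ^ n).order = n * z.order := by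
  obtain ⟨n, rfl | rfl⟩ := n.eq_nat_or_neg
  · rw [zpow_natCast, HahnSeries.order_pow, nsmul_eq_mul]
  · rw [zpow_neg, zpow_natCast, order_inv', HahnSeries.order_pow, nsmul_eq_mul, neg_mul]

theorem order_prod' {k : Type*} [Field k] {ι : Type*} (s : Finset ι) (z : ι → LaurentSeries k)
    (hz : ∀ i ∈ s, z i ≠ 0) : (∏ i ∈ s, z i).order = ∑ i ∈ s, (z i).order := by
  classical
  induction s using Finset.induction_on with
  | empty => simp
  | insert a s ha ih =>
    have h1 : ∏ i ∈ s, z i ≠ 0 := Finset.prod_ne_zero_iff.2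
      fun i hi => hz i (Finset.mem_insert_of_mem hi)
    rw [Finset.prod_insert ha, Finset.sum_insert ha,
      HahnSeries.order_mul (hz a (Finset.mem_insert_self _ _)) h1,
      ih fun i hi => hz i (Finset.mem_insert_of_mem hi)]

theorem scale_one' (r : RatFunc C) : scale (1 : C) one_ne_zero r = r := by
  have : (scale (1 : C) one_ne_zero).toAlgHom = AlgHom.id C (RatFunc C) := by
    apply ratFunc_ext
    simp
  exact DFunLike.congr_fun this r

variable [CharZero C] {K : Type v} [Field K] [Algebra C K] [Algebra (RatFunc C) K]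
  [IsScalarTower C (RatFunc C) K] [FiniteDimensional (RatFunc C) K] [CFF C K]

omit [Algebra (RatFunc C) K] [IsScalarTower C (RatFunc C) K] [FiniteDimensional (RatFunc C) K]
  [CharZero C] [IsUltrametricDist C] [CompleteSpace C] [IsAlgClosed C] in
theorem pole_aux (P : Plk C K) {T : K} (c : C) (h2 : ord P T < 0)
    (hcon : 0 < ord P (T - algebraMap C K c)) : False := by
  have h3 : T ∈ Mge P 0 := by
    have h4 : T = (T - algebraMap C K c) + algebraMap C K c := by
      ring
    rw [h4]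
    refine Submodule.add_mem _ (mem_Mge.2 (Or.inr hcon.le)) (mem_Mge.2 (Or.inr ?_))
    rw [ord_const]
  rcases mem_Mge.1 h3 with h4 | h4
  · rw [h4, ord_zero] at h2
    exact lt_irrefl _ h2
  · omega

/-- **T2a**: if the orders of `g` at all places with `|T| > ‖γ ^ N‖` are divisible by `n`, then so
are the orders of `ψ g` on the disc. -/
theorem divOn_T (D : P025H210.Charts C K) (P : P025H210.Pole C K) (γ : Cˣ)
    (hr : D.r0 ≤ ‖(γ : C)‖ ^ P.N) {n : ℕ} (_hn : n ≠ 0) {g : K} (hg : g ≠ 0)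
    (h : ∀ Q : Plk C K, (∀ a : C, ‖a‖ ≤ ‖(γ : C)‖ ^ P.N →
      ord Q (P025H210.TT C K - algebraMap C K a) ≤ 0) → (n : ℤ) ∣ ord Q g) :
    DivOn n ((D.ψ P γ g : F2 C) : F0 C) := by
  have hxne : (D.ψ P γ g : F2 C) ≠ 0 := (_root_.map_ne_zero _).2 hg
  have hx0 : ((D.ψ P γ g : F2 C) : F0 C) ≠ 0 := fun h0 => hxne (Subtype.ext h0)
  obtain ⟨r, hr0, w, hw, hw1, hxr⟩ := (mem_F2_iff hx0).1 (D.ψ P γ g).2
  obtain ⟨a, ha, S, -, hprod⟩ := P025H469.exists_sc_eq_prod hr0
  have hr1 : algebraMap (RatFunc C) (F0 C) r = algebraMap C (F0 C) a *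
      ∏ b ∈ S, (tt C - algebraMap C (F0 C) b) ^ P025H469.ordC b r := by
    have h1 := hprod 1 one_ne_zero
    rw [P025H469.sc_apply, map_one, one_mul] at h1
    rw [← h1, scale_one']
  -- orders at the finite points
  have hfin : ∀ b : C, 1 < ‖b‖ → (n : ℤ) ∣ P025H469.ordC b r := by
    intro b hb
    obtain ⟨Q, hQ1, hQ2⟩ := P025H469.exists_place_chart (D.ψ P γ) (T := P025H210.TT C K) P.N_pos
      (c0 := (γ : C) ^ P.N) (pow_ne_zero _ γ.ne_zero) (by
        rw [D.map_T P γ hr, map_mul, map_pow (algebraMap (RatFunc C) (F2 C))]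
        rfl) hb
    rw [← hQ2 g hg r w hr0 hw hw1 hxr]
    apply h Q
    intro c hc
    by_contra hcon
    push Not at hcon
    have h1 : P025H210.TT C K - algebraMap C K c ≠ 0 := by
      intro h0
      rw [h0, ord_zero] at hcon
      exact lt_irrefl _ hcon
    have h2 : P025H210.TT C K - algebraMap C K ((γ : C) ^ P.N * b ^ P.N) ≠ 0 := by
      intro h0
      rw [h0, ord_zero] at hQ1
      exact lt_irrefl _ hQ1
    have h3 : (P025H210.TT C K - algebraMap C K c) +
        -(P025H210.TT C K - algebraMap C K ((γ : C) ^ P.N * b ^ P.N)) =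
        algebraMap C K ((γ : C) ^ P.N * b ^ P.N - c) := by
      rw [map_sub]
      ring
    have h4 : (γ : C) ^ P.N * b ^ P.N - c ≠ 0 := by
      rw [sub_ne_zero]
      rintro rfl
      rw [norm_mul, norm_pow, norm_pow] at hc
      have h5 : 1 < ‖b‖ ^ P.N := one_lt_pow₀ hb P.N_pos.ne'
      have h6 : 0 < ‖(γ : C)‖ ^ P.N := pow_pos (norm_pos_iff.2 γ.ne_zero) _
      nlinarith
    have h5 := ord_le_add Q h1 (neg_ne_zero.2 h2) (by
      rw [h3]
      exact (_root_.map_ne_zero _).2 h4)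
    rw [h3, ord_const, ord_neg] at h5
    exact absurd h5 (not_le.2 (lt_min hcon hQ1))
  -- the order at infinity
  have hinf : (n : ℤ) ∣ ∑ b ∈ S, P025H469.ordC b r := by
    have h1 : (n : ℤ) ∣ ord P.1 g := by
      apply h P.1
      intro c _
      by_contra hcon
      push Not at hcon
      exact pole_aux P.1 c P.2 hcon
    rw [← D.order_eq P γ hr g hg] at h1
    have h2 : D.ψ P γ g = algebraMap C (F2 C) a *
        (∏ b ∈ S, (P025H210.t2 - algebraMap C (F2 C) b) ^ P025H469.ordC b r) *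
        ⟨1 + w, mem_F2_of_A2 ((A2 C).add_mem (A2 C).one_mem hw)⟩ := by
      apply (algebraMap (F2 C) (F0 C)).injective
      rw [map_mul, map_mul, map_prod]
      simp only [map_zpow₀, map_sub]
      exact hxr.trans (by rw [hr1]; rfl)
    have hlin : ∀ b : C, (P025H210.t2 - algebraMap C (F2 C) b : F2 C) ≠ 0 := by
      intro b h0
      have := order_lamInf_lin b
      rw [h0, map_zero, HahnSeries.order_zero] at this
      omega
    have hu : (⟨1 + w, mem_F2_of_A2 ((A2 C).add_mem (A2 C).one_mem hw)⟩ : F2 C) ≠ 0 := by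
      intro h0
      exact (U2.one_add hw hw1).2.2 (congrArg Subtype.val h0)
    have hprod0 : ∏ b ∈ S, (P025H210.t2 - algebraMap C (F2 C) b : F2 C) ^ P025H469.ordC b r ≠ 0 :=
      Finset.prod_ne_zero_iff.2 fun b _ => zpow_ne_zero _ (hlin b)
    have ha' : algebraMap C (F2 C) a ≠ 0 := (_root_.map_ne_zero _).2 ha
    have h3 : (P025H210.lamInf (D.ψ P γ g)).order = - ∑ b ∈ S, P025H469.ordC b r := by
      rw [h2, map_mul, map_mul, HahnSeries.order_mul
        (mul_ne_zero ((_root_.map_ne_zero _).2 ha') ((_root_.map_ne_zero _).2 hprod0))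
        ((_root_.map_ne_zero _).2 hu),
        HahnSeries.order_mul ((_root_.map_ne_zero _).2 ha') ((_root_.map_ne_zero _).2 hprod0),
        order_lamInf_U2 (x := ⟨1 + w, mem_F2_of_A2 ((A2 C).add_mem (A2 C).one_mem hw)⟩)
          (U2.one_add hw hw1), AlgHom.commutes, order_const, map_prod, order_prod',
        zero_add, add_zero, ← Finset.sum_neg_distrib]
      · refine Finset.sum_congr rfl fun b _ => ?_
        rw [map_zpow₀, order_zpow' ((_root_.map_ne_zero _).2 (hlin b)), order_lamInf_lin]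
        ring
      · intro b _
        exact (_root_.map_ne_zero _).2 (zpow_ne_zero _ (hlin b))
    rw [h3, dvd_neg] at h1
    exact h1
  -- conclusion
  have hNF : NF n (∑ b ∈ S, if ‖b‖ ≤ 1 then P025H469.ordC b r else 0)
      ((D.ψ P γ g : F2 C) : F0 C) := by
    rw [hxr, hr1]
    have h1 := ((NF.of_unit (n := n) (U2.const ha)).mul (NF.prod S
      (fun b => if ‖b‖ ≤ 1 then P025H469.ordC b r else 0)
      (fun b => (tt C - algebraMap C (F0 C) b) ^ P025H469.ordC b r) (fun b _ => by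
        split_ifs with hb
        · exact NF.inner hb _
        · exact NF.outer (hfin b (not_le.1 hb))))).mul (NF.of_unit (n := n) (U2.one_add hw hw1))
    rwa [zero_add, add_zero] at h1
  refine hNF.divOn ?_
  have h1 : ∑ b ∈ S, P025H469.ordC b r = (∑ b ∈ S, if ‖b‖ ≤ 1 then P025H469.ordC b r else 0) +
      ∑ b ∈ S, if ‖b‖ ≤ 1 then 0 else P025H469.ordC b r := by
    rw [← Finset.sum_add_distrib]
    refine Finset.sum_congr rfl fun b _ => ?_
    split_ifs <;> simp
  rw [h1] at hinf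
  refine (dvd_add_left ?_).1 hinf
  refine Finset.dvd_sum fun b _ => ?_
  split_ifs with hb
  · exact dvd_zero _
  · exact hfin b (not_le.1 hb)

end

end P025H572
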