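import Vale.Agent.P025.R2.H572.DivOn
import Vale.Agent.P025.R2.H907.T2b

/-!
# P025 G-LEMA (helper572): the bridge from a system on `K` to the normal form on a small disc
(T2a: `DivOn.lean`; T2b: helper907 `T2b.lean`).
-/

open Polynomial TensorProduct P025H373 P025H544 P025H628 Vale.Agent.P019P

universe u v

namespace P025H572

noncomputable section

variable {C : Type u} [NontriviallyNormedField C] [IsUltrametricDist C] [CompleteSpace C]
  [IsAlgClosed C] [CharZero C]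
  {K : Type v} [Field K] [Algebra C K] [Algebra (RatFunc C) K] [IsScalarTower C (RatFunc C) K]
  [FiniteDimensional (RatFunc C) K] [CFF C K]

/-- T2a. divisibility of orders on the disc -/
theorem divOn_of_dvd (D : P025H210.Charts C K) (P : P025H210.Pole C K) (γ : Cˣ)
    (hr : D.r0 ≤ ‖(γ : C)‖ ^ P.N) {n : ℕ} (hn : n ≠ 0) {f : K} (hf : f ≠ 0)
    (h : ∀ P' : Plk C K, (n : ℤ) ∣ ord P' f) :
    P025H907.DivOn n ((D.ψ P γ f : F2 C) : F0 C) :=
  divOn_T D P γ hr hn hf fun Q _ => h Q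

/-- T2b. normal form of a system at a zero of order `e - 1` of its Hodge-Tate form, on all small
discs around `P`. -/
theorem system_normal_form {p : ℕ} (hp : p.Prime) (hpC : ‖(p : C)‖ < 1)
    (D : P025H210.Charts C K) (P : P025H210.Pole C K)
    (f : ℕ → K) (hf : P025H587.IsSys C p f) (Der : Derivation C K K) (θ : K)
    (hθ : P025H587.IsTheta p Der f θ) (hθ0 : θ ≠ 0)
    (s : K) (hs : ord P.1 s = 1) (hDs : Der s ≠ 0)
    (e : ℕ) (hord : ord P.1 θ - ord P.1 (Der s) = (e : ℤ) - 1) :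
    ∃ (γ₀ : Cˣ) (R : ℝ) (w : C), w ≠ 0 ∧ 1 ≤ R ∧ D.r0 ≤ ‖(γ₀ : C)‖ ^ P.N ∧
      ∀ δ : Cˣ, R ≤ ‖(δ : C)‖ →
        ∃ α : F0 C ≃ₐ[C] F0 C, (∀ x, α x ∈ F2 C ↔ x ∈ F2 C) ∧
          ∀ m : ℕ, ∃ g : F0 C, g ∈ F2 C ∧ g ≠ 0 ∧
            α (D.ψ P (γ₀ * δ) (f m) : F0 C) =
              (1 + algebraMap C (F0 C) (w * (δ : C)⁻¹ ^ e) * (tt C)⁻¹ ^ e) * g ^ p ^ m :=
  P025H907.system_normal_form_of hp hpC D P (fun γ hγ _ hn _ hg h => divOn_of_dvd D P γ hγ hn hg h)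
    f hf Der θ hθ hθ0 s hs hDs e hord

end

end P025H572
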