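import Vale.Agent.P025.R2.H572.RnsAt
import Vale.Agent.P025.R2.H572.NFSpec
import Vale.Agent.P025.R2.H572.LAaAdj
import Vale.Agent.P025.R2.H666.Poles

/-!
# P025 G-LEMA, part 6 (helper572): Lemma A (blueprint (6.4))
-/

open Polynomial TensorProduct P025H373 P025H544 P025H628 P025H492 P025H450 P025H587 P025H666
open Vale.Agent.P019P

universe u v

namespace P025H572

noncomputable section

/-- a transcendental element gives a `RatFunc`-algebra structure. -/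
theorem exists_ratStr {C : Type u} {K : Type v} [Field C] [Field K] [Algebra C K] {T : K}
    (hT : Transcendental C T) : ∃ (_ : Algebra (RatFunc C) K) (_ : IsScalarTower C (RatFunc C) K),
      algebraMap (RatFunc C) K RatFunc.X = T := by
  have hinj : Function.Injective (aeval T : C[X] →ₐ[C] K) := transcendental_iff_injective.1 hT
  let j : RatFunc C →ₐ[C] K := RatFunc.liftAlgHom (aeval T)
    (nonZeroDivisors_le_comap_nonZeroDivisors_of_injective _ hinj)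
  refine ⟨j.toRingHom.toAlgebra, ?_, ?_⟩
  · let _ : Algebra (RatFunc C) K := j.toRingHom.toAlgebra
    exact IsScalarTower.of_algebraMap_eq fun x => (j.commutes x).symm
  · change j RatFunc.X = T
    rw [RatFunc.liftAlgHom_apply]
    simp

variable {C : Type u} [NontriviallyNormedField C] [IsUltrametricDist C] [CompleteSpace C]
  [IsAlgClosed C] [CharZero C]

theorem lemA_core {K : Type v} [Field K] [Algebra C K] [CFF C K] {p : ℕ} (hp : p.Prime)
    (hpC : ‖(p : C)‖ < 1) (D : Derivation C K K) (f : ℕ → K) (θ : K)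
    (hf : IsSys C p f) (hθ : IsTheta p D f θ) (hθ0 : θ ≠ 0) (P : Plk C K) (s : K)
    (hs : ord P s = 1) (hDs : D s ≠ 0) (e : ℕ) (he : 1 ≤ e)
    (hord : ord P θ - ord P (D s) = (e : ℤ) - 1) (l : ℕ) (hl : l ≠ 0)
    (hmodel : ∀ b : C, b ≠ 0 → ‖b‖ < 1 → ∃ m : ℕ, IsModel l (p ^ m) (xb b e)) :
    RNS p l C K P := by
  obtain ⟨T, hT0, hTP, hTQ⟩ := exists_one_pole (k := C) (K := K) P (N := 2 * gen C K + 1) (by omega)
  have hTtr : Transcendental C T := transcendental_of_ord (P := P) (by rw [hTP]; omega)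
  obtain ⟨_, _, hX⟩ := exists_ratStr hTtr
  have hfin : FiniteDimensional (RatFunc C) K :=
    P025H492.finite_of_transcendental (k := C) (x := (RatFunc.X : RatFunc C))
      RatFunc.transcendental_X
  have hpole : ∀ Q : Plk C K, ord Q (algebraMap (RatFunc C) K RatFunc.X) < 0 ↔ Q = P := by
    intro Q
    rw [hX]
    constructor
    · intro h
      by_contra hQ
      have := hTQ Q hQ
      omega
    · rintro rfl
      rw [hTP]
      omega
  refine ⟨inferInstance, inferInstance, hpole, ?_⟩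
  obtain ⟨Ch⟩ := P025H210.exists_charts C K
  let P0 : P025H210.Pole C K := ⟨P, (hpole P).2 rfl⟩
  have hP0 : ∀ P' : P025H210.Pole C K, P' = P0 := fun P' => Subtype.ext ((hpole P'.1).1 P'.2)
  obtain ⟨γ₀, R, w, hw, hR, hγ₀, hNF⟩ := system_normal_form hp hpC Ch P0 f hf D θ hθ hθ0 s hs hDs
    e hord
  intro r
  -- choose `δ`
  obtain ⟨δ, hδ⟩ := NormedField.exists_lt_norm C
    (max (max R 1) (max ‖w‖ (max (r / ‖(γ₀ : C)‖) (1 / ‖(γ₀ : C)‖))))
  simp only [max_lt_iff] at hδ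
  obtain ⟨⟨hδR, hδ1⟩, hδw, hδr, hδγ⟩ := hδ
  have hδ0 : δ ≠ 0 := by
    rintro rfl
    rw [norm_zero] at hδ1
    linarith
  have hγpos : 0 < ‖(γ₀ : C)‖ := norm_pos_iff.2 γ₀.ne_zero
  let δ' : Cˣ := Units.mk0 δ hδ0
  have hδ' : (δ' : C) = δ := rfl
  obtain ⟨α, hα, hnf⟩ := hNF δ' (by rw [hδ']; exact hδR.le)
  let b : C := w * (δ' : C)⁻¹ ^ e
  have hb0 : b ≠ 0 := mul_ne_zero hw (pow_ne_zero _ (inv_ne_zero δ'.ne_zero))
  have hb1 : ‖b‖ < 1 := by
    change ‖w * (δ' : C)⁻¹ ^ e‖ < 1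
    rw [norm_mul, norm_pow, norm_inv, hδ', inv_pow, ← div_eq_mul_inv, div_lt_one (by positivity)]
    exact hδw.trans_le (le_self_pow₀ hδ1.le (by omega))
  obtain ⟨m, hm⟩ := hmodel b hb0 hb1
  obtain ⟨g, hg, hg0, heq⟩ := hnf m
  have hnorm : ‖(((γ₀ * δ' : Cˣ) ^ P0.N : Cˣ) : C)‖ = (‖(γ₀ : C)‖ * ‖δ‖) ^ P0.N := by
    rw [Units.val_pow_eq_pow_val, norm_pow, Units.val_mul, norm_mul, hδ']
  have h1 : 1 ≤ ‖(γ₀ : C)‖ * ‖δ‖ := by
    rw [div_lt_iff₀ hγpos] at hδγ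
    linarith
  have h2 : r ≤ ‖(γ₀ : C)‖ * ‖δ‖ := by
    rw [div_lt_iff₀ hγpos] at hδr
    linarith
  have hr : Ch.r0 ≤ ‖(((γ₀ * δ' : Cˣ) ^ P0.N : Cˣ) : C)‖ := by
    rw [hnorm]
    refine hγ₀.trans (pow_le_pow_left₀ hγpos.le ?_ _)
    nlinarith
  refine ⟨(γ₀ * δ') ^ P0.N, ?_, ?_⟩
  · rw [hnorm]
    exact h2.trans (le_self_pow₀ h1 P0.N_pos.ne')
  · exact rnsAt_of_local Ch P0 hP0 (γ₀ * δ') _ rfl hr α hα hl hp (f m) (hf.ne m)
      ((divBy_iff (hf.ne m)).1 (hf.div m)) (xb b e) (xb_ne_zero b hb1 e) g hg hg0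
      (by rw [heq]; congr 1) hm

end

end P025H572
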