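import Vale.Agent.P025.R2.H572.LemA
import Vale.Agent.P025.R2.H222.ModelB
import Vale.Agent.P025.R2.H666.Asm2
import Vale.Agent.P025.R2.H492.Der

/-!
# P025 G-LEMA, part 7 (helper572): Lemma A in helper666's form
-/

open Polynomial TensorProduct P025H373 P025H544 P025H628 P025H492 P025H450 P025H587 P025H666
open Vale.Agent.P019P

universe u

namespace P025H572

variable {C : Type u} [NontriviallyNormedField C] [IsUltrametricDist C] [CompleteSpace C]
  [IsAlgClosed C] [CharZero C]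

/-- `‖p ^ m‖` is eventually small -/
theorem exists_norm_pow_lt {p : ℕ} (hpC : ‖(p : C)‖ < 1) {ε : ℝ} (hε : 0 < ε) :
    ∃ m0 : ℕ, ∀ m, m0 ≤ m → ‖((p ^ m : ℕ) : C)‖ < ε := by
  obtain ⟨m0, hm0⟩ := exists_pow_lt_of_lt_one hε hpC
  refine ⟨m0, fun m hm => ?_⟩
  push_cast
  rw [norm_pow]
  exact (pow_le_pow_of_le_one (norm_nonneg _) hpC.le hm).trans_lt hm0

/-- a local model exists for `m` large -/
theorem exists_model {p : ℕ} (hp : p.Prime) (hpC : ‖(p : C)‖ < 1) {e l : ℕ} (he : 2 ≤ e)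
    (hl : IsL p e l) {b : C} (hb0 : b ≠ 0) (hb1 : ‖b‖ < 1) :
    ∃ m : ℕ, IsModel l (p ^ m) (xb b e) := by
  have hbpos : 0 < ‖b‖ := norm_pos_iff.2 hb0
  have hepos : 0 < ‖(e : C)‖ := norm_pos_iff.2 (by exact_mod_cast (by omega : e ≠ 0))
  obtain ⟨h1, h2, h3 | ⟨⟨j, hj⟩, h4⟩⟩ := hl
  · obtain ⟨m0, hm0⟩ := exists_norm_pow_lt (C := C) hpC (mul_pos hbpos hepos)
    exact ⟨m0 + 1, isModel_a hp hpC (by omega) h1 h2 h3 (by omega) (hm0 _ (by omega)) hb1⟩
  · subst hj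
    rw [h4]
    obtain ⟨m0, hm0⟩ := exists_norm_pow_lt (C := C) hpC hbpos
    have hj1 : 1 ≤ j := by
      by_contra h
      have : j = 0 := by omega
      rw [this, pow_zero] at he
      omega
    refine ⟨m0 + 4, isModel_b hp hpC hj1 (by split_ifs <;> omega) (hm0 _ (by omega)) hb1⟩

/-- **Lemma A** -/
theorem lemA {p : ℕ} (hp : p.Prime) (hpC : ‖(p : C)‖ < 1) : LemA C p := by
  intro K _ _ _ D f θ hD hf hθ hθ0 P e he hord l hl
  obtain ⟨s, hs0, hs⟩ := exists_unif P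
  exact lemA_core hp hpC D f θ hf hθ hθ0 P s hs
    (der_ne_zero hD (nc_of_ord (P := P) (by omega))) e (by omega) (hord s hs) l hl.1.ne_zero
    fun b hb0 hb1 => exists_model hp hpC he hl hb0 hb1

end P025H572
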